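import Mathlib

namespace Vale.Agent.P141

open MeasureTheory Filter Topology
open scoped ENNReal NNReal SchwartzMap

/-- The truncated trilinear Hilbert transform `T_{ε,R}(f₁,f₂,f₃)(x)` with slopes `1,2,3`. -/
noncomputable def truncT (f₁ f₂ f₃ : 𝓢(ℝ, ℂ)) (ε R x : ℝ) : ℂ :=
  ∫ t in {t : ℝ | ε < |t| ∧ |t| < R}, f₁ (x - t) * f₂ (x - 2 * t) * f₃ (x - 3 * t) / (t : ℂ)

/-- The trilinear Hilbert transform: the principal value, i.e. the limit of `T_{ε,R}` as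
`ε → 0+` and `R → ∞`. -/
noncomputable def T (f₁ f₂ f₃ : 𝓢(ℝ, ℂ)) (x : ℝ) : ℂ :=
  limUnder ((𝓝[>] (0 : ℝ)) ×ˢ (atTop : Filter ℝ)) (fun q : ℝ × ℝ => truncT f₁ f₂ f₃ q.1 q.2 x)

/-- Holder tuples `(p₁,p₂,p₃,r)`: `1 < pᵢ ≤ ∞`, `0 < r < ∞`, `1/r = 1/p₁ + 1/p₂ + 1/p₃`. -/
def IsHolderTuple (p₁ p₂ p₃ r : ℝ≥0∞) : Prop :=
  1 < p₁ ∧ 1 < p₂ ∧ 1 < p₃ ∧ 0 < r ∧ r < ∞ ∧ 1 / r = 1 / p₁ + 1 / p₂ + 1 / p₃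

/-- `T` is bounded at the tuple: `‖T(f₁,f₂,f₃)‖_r ≤ C ‖f₁‖_{p₁} ‖f₂‖_{p₂} ‖f₃‖_{p₃}` for all
Schwartz functions, with a finite constant `C`. -/
def BoundedAt (p₁ p₂ p₃ r : ℝ≥0∞) : Prop :=
  ∃ C : ℝ≥0, ∀ f₁ f₂ f₃ : 𝓢(ℝ, ℂ),
    eLpNorm (T f₁ f₂ f₃) r volume ≤
      C * eLpNorm f₁ p₁ volume * eLpNorm f₂ p₂ volume * eLpNorm f₃ p₃ volume

end Vale.Agent.P141
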