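import Mathlib
import Vale.Agent.P141.Defs

namespace Vale.Agent.P141

open MeasureTheory Filter Topology Finset
open scoped ENNReal NNReal SchwartzMap

/-- a fixed smooth bump, equal to `1` on `[-3,1]` and supported in `(-4,2)` -/
noncomputable def bmp : ContDiffBump (-1 : ℝ) := ⟨2, 3, by norm_num, by norm_num⟩

theorem bmp_one {y : ℝ} (h1 : -3 ≤ y) (h2 : y ≤ 1) : bmp y = 1 := by
  apply ContDiffBump.one_of_mem_closedBall
  rw [Metric.mem_closedBall, Real.dist_eq, abs_le]
  constructor <;> simp only [bmp] <;> linarith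

theorem bmp_zero {y : ℝ} (h : y ≤ -4 ∨ 2 ≤ y) : bmp y = 0 := by
  apply ContDiffBump.zero_of_le_dist
  rw [Real.dist_eq]
  simp only [bmp]
  rcases h with h | h
  · rw [abs_of_nonpos (by linarith)]
    linarith
  · rw [abs_of_nonneg (by linarith)]
    linarith

/-- a sum of translated bumps centred at the points `8 s + o`, `s ∈ S` -/
noncomputable def comb (S : Finset ℤ) (o : ℝ) (y : ℝ) : ℝ := ∑ s ∈ S, bmp (y - (8 * (s : ℝ) + o))

theorem comb_nonneg (S : Finset ℤ) (o y : ℝ) : 0 ≤ comb S o y :=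
  sum_nonneg (fun _ _ => bmp.nonneg)

theorem comb_eq_zero {S : Finset ℤ} {o y : ℝ}
    (h : ∀ s ∈ S, y - (8 * (s : ℝ) + o) ≤ -4 ∨ 2 ≤ y - (8 * (s : ℝ) + o)) : comb S o y = 0 :=
  sum_eq_zero (fun s hs => bmp_zero (h s hs))

theorem one_le_comb {S : Finset ℤ} {o y : ℝ} {s : ℤ} (hs : s ∈ S)
    (h1 : -3 ≤ y - (8 * (s : ℝ) + o)) (h2 : y - (8 * (s : ℝ) + o) ≤ 1) : 1 ≤ comb S o y := by
  have := single_le_sum (f := fun s : ℤ => bmp (y - (8 * (s : ℝ) + o)))
    (fun _ _ => bmp.nonneg) hs
  rw [bmp_one h1 h2] at this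
  exact this

theorem comb_le_one (S : Finset ℤ) (o y : ℝ) : comb S o y ≤ 1 := by
  by_cases h : ∀ s ∈ S, y - (8 * (s : ℝ) + o) ≤ -4 ∨ 2 ≤ y - (8 * (s : ℝ) + o)
  · rw [comb_eq_zero h]
    norm_num
  · push Not at h
    obtain ⟨s, hs, h1, h2⟩ := h
    unfold comb
    rw [sum_eq_single_of_mem s hs]
    · exact bmp.le_one
    · intro s' _ hne
      apply bmp_zero
      rcases lt_or_gt_of_ne hne with hlt | hgt
      · right
        have : (s' : ℝ) + 1 ≤ s := by exact_mod_cast hlt
        linarith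
      · left
        have : (s : ℝ) + 1 ≤ s' := by exact_mod_cast hgt
        linarith

theorem comb_contDiff (S : Finset ℤ) (o : ℝ) : ContDiff ℝ ((⊤ : ℕ∞) : WithTop ℕ∞) (comb S o) := by
  unfold comb
  apply ContDiff.sum
  intro s _
  exact bmp.contDiff.comp (contDiff_id.sub contDiff_const)

theorem comb_hasCompactSupport (S : Finset ℤ) (o : ℝ) : HasCompactSupport (comb S o) := by
  classical
  induction S using Finset.induction_on with
  | empty =>
    have : comb ∅ o = fun _ => 0 := by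
      funext y
      simp [comb]
    rw [this]
    exact HasCompactSupport.zero
  | insert s S hs ih =>
    have : comb (insert s S) o = (fun y => bmp (y - (8 * (s : ℝ) + o))) + comb S o := by
      funext y
      simp [comb, sum_insert hs]
    rw [this]
    refine HasCompactSupport.add ?_ ih
    exact bmp.hasCompactSupport.comp_homeomorph (Homeomorph.subRight (8 * (s : ℝ) + o))

/-- the comb as a complex Schwartz function -/
noncomputable def combS (S : Finset ℤ) (o : ℝ) : 𝓢(ℝ, ℂ) :=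
  HasCompactSupport.toSchwartzMap (f := fun y => ((comb S o y : ℝ) : ℂ))
    ((comb_hasCompactSupport S o).comp_left Complex.ofReal_zero)
    (Complex.ofRealCLM.contDiff.comp (comb_contDiff S o))

@[simp] theorem combS_apply (S : Finset ℤ) (o y : ℝ) : combS S o y = ((comb S o y : ℝ) : ℂ) := rfl

theorem combS_eLpNorm_le (S : Finset ℤ) (o : ℝ) (p : ℝ≥0∞) :
    eLpNorm (combS S o) p volume ≤ (6 * (S.card : ℝ≥0∞)) ^ p.toReal⁻¹ := by
  set U : Set ℝ := ⋃ s ∈ S, Set.Icc (8 * (s : ℝ) + o - 4) (8 * (s : ℝ) + o + 2) with hU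
  have hsupp : Function.support (combS S o) ⊆ U := by
    intro y hy
    by_contra hyU
    apply hy
    rw [combS_apply, comb_eq_zero, Complex.ofReal_zero]
    intro s hs
    by_contra hcon
    push Not at hcon
    apply hyU
    simp only [hU, Set.mem_iUnion]
    exact ⟨s, hs, by constructor <;> linarith [hcon.1, hcon.2]⟩
  have hUm : volume U ≤ 6 * (S.card : ℝ≥0∞) := by
    calc volume U ≤ ∑ s ∈ S, volume (Set.Icc (8 * (s : ℝ) + o - 4) (8 * (s : ℝ) + o + 2)) :=
          measure_biUnion_finset_le _ _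
      _ = ∑ s ∈ S, (6 : ℝ≥0∞) := by
          refine sum_congr rfl (fun s _ => ?_)
          rw [Real.volume_Icc]
          have : 8 * (s : ℝ) + o + 2 - (8 * (s : ℝ) + o - 4) = 6 := by ring
          rw [this]
          norm_num
      _ = 6 * (S.card : ℝ≥0∞) := by
          rw [sum_const, nsmul_eq_mul, mul_comm]
  rw [← eLpNorm_restrict_eq_of_support_subset hsupp]
  have hb : ∀ᵐ y ∂(volume.restrict U), ‖combS S o y‖ ≤ 1 := by
    refine Eventually.of_forall (fun y => ?_)
    rw [combS_apply, Complex.norm_real, Real.norm_eq_abs, abs_of_nonneg (comb_nonneg S o y)]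
    exact comb_le_one S o y
  calc eLpNorm (combS S o) p (volume.restrict U)
      ≤ (volume.restrict U) Set.univ ^ p.toReal⁻¹ * ENNReal.ofReal 1 := eLpNorm_le_of_ae_bound hb
    _ = volume U ^ p.toReal⁻¹ := by simp
    _ ≤ (6 * (S.card : ℝ≥0∞)) ^ p.toReal⁻¹ :=
        ENNReal.rpow_le_rpow hUm (inv_nonneg.2 ENNReal.toReal_nonneg)

end Vale.Agent.P141
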