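import Mathlib

namespace Vale.Agent.P141

open Finset

/-- iterated digit configuration: pairs `(x, t)` whose base-`b` digits are taken from `G` -/
def Gn (G : Finset (ℤ × ℤ)) (b : ℕ) : ℕ → Finset (ℤ × ℤ)
  | 0 => {(0, 0)}
  | n + 1 => image₂ (fun g h : ℤ × ℤ => (g.1 + b * h.1, g.2 + b * h.2)) G (Gn G b n)

/-- the projection `x - i t` of a set of pairs -/
def proj (i : ℤ) (H : Finset (ℤ × ℤ)) : Finset ℤ := H.image (fun g => g.1 - i * g.2)

variable {G : Finset (ℤ × ℤ)} {b : ℕ}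

theorem Gn_fst_inj (hb : 2 ≤ b)
    (hinj : ∀ g ∈ G, ∀ h ∈ G, (b : ℤ) ∣ g.1 - h.1 → g = h) (n : ℕ) :
    ∀ u ∈ Gn G b n, ∀ v ∈ Gn G b n, u.1 = v.1 → u = v := by
  induction n with
  | zero =>
    intro u hu v hv _
    simp only [Gn, mem_singleton] at hu hv
    rw [hu, hv]
  | succ n ih =>
    intro u hu v hv huv
    simp only [Gn, mem_image₂] at hu hv
    obtain ⟨g, hg, h, hh, rfl⟩ := hu
    obtain ⟨g', hg', h', hh', rfl⟩ := hv
    simp only at huv
    have hb0 : (b : ℤ) ≠ 0 := by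
      have : b ≠ 0 := by omega
      exact_mod_cast this
    have h1 : g = g' := by
      apply hinj g hg g' hg'
      exact ⟨h'.1 - h.1, by linarith⟩
    subst h1
    have h2 : h.1 = h'.1 := by
      have : (b : ℤ) * h.1 = b * h'.1 := by linarith
      exact mul_left_cancel₀ hb0 this
    have h3 := ih h hh h' hh' h2
    subst h3
    rfl

theorem Gn_card (hb : 2 ≤ b)
    (hinj : ∀ g ∈ G, ∀ h ∈ G, (b : ℤ) ∣ g.1 - h.1 → g = h) (n : ℕ) :
    (Gn G b n).card = G.card ^ n := by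
  induction n with
  | zero => simp [Gn]
  | succ n ih =>
    have hb0 : (b : ℤ) ≠ 0 := by
      have : b ≠ 0 := by omega
      exact_mod_cast this
    rw [Gn, card_image₂_iff.2, ih, pow_succ, mul_comm]
    rintro ⟨g, h⟩ hgh ⟨g', h'⟩ hgh' heq
    simp only [Set.mem_prod, mem_coe] at hgh hgh'
    simp only [Prod.mk.injEq] at heq
    obtain ⟨e1, e2⟩ := heq
    have h1 : g = g' := by
      apply hinj g hgh.1 g' hgh'.1
      exact ⟨h'.1 - h.1, by linarith⟩
    subst h1
    have h2 : h.1 = h'.1 := by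
      have : (b : ℤ) * h.1 = b * h'.1 := by linarith
      exact mul_left_cancel₀ hb0 this
    have h3 := Gn_fst_inj hb hinj n h hgh.2 h' hgh'.2 h2
    subst h3
    rfl

theorem proj_zero_card (hb : 2 ≤ b)
    (hinj : ∀ g ∈ G, ∀ h ∈ G, (b : ℤ) ∣ g.1 - h.1 → g = h) (n : ℕ) :
    ((Gn G b n).image Prod.fst).card = G.card ^ n := by
  rw [card_image_of_injOn, Gn_card hb hinj]
  intro u hu v hv huv
  exact Gn_fst_inj hb hinj n u hu v hv huv

theorem proj_card_le (i : ℤ) (n : ℕ) : (proj i (Gn G b n)).card ≤ (proj i G).card ^ n := by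
  induction n with
  | zero => simp [Gn, proj]
  | succ n ih =>
    have hsub : proj i (Gn G b (n + 1)) ⊆
        image₂ (fun d s : ℤ => d + b * s) (proj i G) (proj i (Gn G b n)) := by
      intro y hy
      simp only [proj, Gn, mem_image, mem_image₂] at hy
      obtain ⟨u, ⟨g, hg, h, hh, rfl⟩, rfl⟩ := hy
      simp only [mem_image₂]
      refine ⟨g.1 - i * g.2, mem_image_of_mem _ hg, h.1 - i * h.2, mem_image_of_mem _ hh, ?_⟩
      ring
    calc (proj i (Gn G b (n + 1))).card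
        ≤ (image₂ (fun d s : ℤ => d + b * s) (proj i G) (proj i (Gn G b n))).card :=
          card_le_card hsub
      _ ≤ (proj i G).card * (proj i (Gn G b n)).card := card_image₂_le _ _ _
      _ ≤ (proj i G).card * (proj i G).card ^ n := Nat.mul_le_mul_left _ ih
      _ = (proj i G).card ^ (n + 1) := by rw [pow_succ, mul_comm]

theorem Gn_bound (hb : 2 ≤ b) (B : ℤ) (hB : ∀ g ∈ G, |g.1| ≤ B ∧ |g.2| ≤ B) (n : ℕ) :
    ∀ u ∈ Gn G b n, |u.1| ≤ B * ((b : ℤ) ^ n - 1) ∧ |u.2| ≤ B * ((b : ℤ) ^ n - 1) := by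
  induction n with
  | zero =>
    intro u hu
    simp only [Gn, mem_singleton] at hu
    subst hu
    simp
  | succ n ih =>
    intro u hu
    simp only [Gn, mem_image₂] at hu
    obtain ⟨g, hg, h, hh, rfl⟩ := hu
    obtain ⟨hg1, hg2⟩ := hB g hg
    obtain ⟨hh1, hh2⟩ := ih h hh
    have hb' : (2 : ℤ) ≤ b := by exact_mod_cast hb
    have hB0 : 0 ≤ B := le_trans (abs_nonneg _) hg1
    have key : ∀ a c : ℤ, |a| ≤ B → |c| ≤ B * ((b : ℤ) ^ n - 1) →
        |a + b * c| ≤ B * ((b : ℤ) ^ (n + 1) - 1) := by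
      intro a c ha hc
      have h1 : |a + b * c| ≤ |a| + (b : ℤ) * |c| := by
        calc |a + b * c| ≤ |a| + |(b : ℤ) * c| := abs_add_le _ _
          _ = |a| + (b : ℤ) * |c| := by rw [abs_mul, abs_of_nonneg (by linarith : (0 : ℤ) ≤ b)]
      have h2 : (b : ℤ) * |c| ≤ b * (B * ((b : ℤ) ^ n - 1)) :=
        mul_le_mul_of_nonneg_left hc (by linarith)
      have h3 : B + b * (B * ((b : ℤ) ^ n - 1)) ≤ B * ((b : ℤ) ^ (n + 1) - 1) := by
        have : B * ((b : ℤ) ^ (n + 1) - 1) - (B + b * (B * ((b : ℤ) ^ n - 1))) = B * ((b : ℤ) - 2) := by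
          ring
        nlinarith
      linarith
    exact ⟨key _ _ hg1 hh1, key _ _ hg2 hh2⟩

end Vale.Agent.P141
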