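import Mathlib
import Vale.Agent.P141.Comb

namespace Vale.Agent.P141

open Finset

/-- push-forward of the mass `ν` on `G` under `(x,t) ↦ x - i t` -/
def push (G : Finset (ℤ × ℤ)) (ν : ℤ × ℤ → ℕ) (i y : ℤ) : ℕ :=
  ∑ g ∈ G.filter (fun g => g.1 - i * g.2 = y), ν g

/-- `∑ f log f` over `S` -/
noncomputable def elog (S : Finset ℤ) (f : ℤ → ℕ) : ℝ := ∑ y ∈ S, (f y : ℝ) * Real.log (f y)

end Vale.Agent.P141
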