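import Mathlib

namespace Vale.Agent.P141

open Finset

/-- Gibbs inequality (Jensen for the logarithm) in unnormalised form -/
theorem gibbs {ι : Type*} (s : Finset ι) (m a : ι → ℝ) (hm : ∀ j ∈ s, 0 < m j)
    (ha : ∀ j ∈ s, 0 < a j) (hs : s.Nonempty) :
    ∑ j ∈ s, m j * (Real.log (a j) - Real.log (m j)) + (∑ j ∈ s, m j) * Real.log (∑ j ∈ s, m j)
      ≤ (∑ j ∈ s, m j) * Real.log (∑ j ∈ s, a j) := by
  set M := ∑ j ∈ s, m j with hM
  have hMpos : 0 < M := sum_pos hm hs
  have hJ := (strictConcaveOn_log_Ioi.concaveOn).le_map_sum (t := s) (w := fun j => m j / M)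
    (p := fun j => a j * M / m j)
    (fun j hj => div_nonneg (hm j hj).le hMpos.le)
    (by rw [← sum_div, div_self hMpos.ne'])
    (fun j hj => Set.mem_Ioi.2 (div_pos (mul_pos (ha j hj) hMpos) (hm j hj)))
  simp only [smul_eq_mul] at hJ
  have e1 : ∑ j ∈ s, m j / M * (a j * M / m j) = ∑ j ∈ s, a j := by
    refine sum_congr rfl (fun j hj => ?_)
    have := (hm j hj).ne'
    field_simp
  rw [e1] at hJ
  have e2 : ∑ j ∈ s, m j / M * Real.log (a j * M / m j)
      = (∑ j ∈ s, m j * (Real.log (a j) - Real.log (m j)) + M * Real.log M) / M := by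
    rw [add_div, sum_div, hM, sum_mul, sum_div, ← sum_add_distrib, ← hM]
    refine sum_congr rfl (fun j hj => ?_)
    rw [Real.log_div (mul_pos (ha j hj) hMpos).ne' (hm j hj).ne',
      Real.log_mul (ha j hj).ne' hMpos.ne']
    ring
  rw [e2, div_le_iff₀ hMpos] at hJ
  linarith

end Vale.Agent.P141
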