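import Mathlib
import Vale.Agent.P141.Defs

namespace Vale.Agent.P141

open scoped ENNReal NNReal

/-- real form of the Holder relation -/
theorem holder_real {p₁ p₂ p₃ r : ℝ≥0∞} (h : IsHolderTuple p₁ p₂ p₃ r) :
    r.toReal⁻¹ = p₁.toReal⁻¹ + p₂.toReal⁻¹ + p₃.toReal⁻¹ := by
  obtain ⟨h1, h2, h3, _, _, hrel⟩ := h
  have f : ∀ p : ℝ≥0∞, 1 < p → 1 / p ≠ ∞ := by
    intro p hp
    rw [one_div]
    exact ENNReal.inv_ne_top.2 (ne_of_gt (lt_trans zero_lt_one hp))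
  have := congrArg ENNReal.toReal hrel
  rw [ENNReal.toReal_add (ENNReal.add_ne_top.2 ⟨f _ h1, f _ h2⟩) (f _ h3),
    ENNReal.toReal_add (f _ h1) (f _ h2)] at this
  simpa only [one_div, ENNReal.toReal_inv] using this

theorem inv_toReal_nonneg (p : ℝ≥0∞) : 0 ≤ p.toReal⁻¹ := inv_nonneg.2 ENNReal.toReal_nonneg

theorem inv_toReal_lt_one {p : ℝ≥0∞} (hp : 1 < p) : p.toReal⁻¹ < 1 := by
  rcases eq_or_ne p ∞ with h | h
  · rw [h]; simp
  · have : 1 < p.toReal := by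
      have := (ENNReal.toReal_lt_toReal ENNReal.one_ne_top h).2 hp
      simpa using this
    exact inv_lt_one_of_one_lt₀ this

end Vale.Agent.P141
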