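import Mathlib

namespace Vale.Agent.P141

open Finset

/-- value of a digit vector in base `b` -/
def val (b : ℕ) {n : ℕ} (σ : Fin n → ℤ) : ℤ := ∑ k, σ k * (b : ℤ) ^ (k : ℕ)

theorem val_succ (b : ℕ) {n : ℕ} (σ : Fin (n + 1) → ℤ) :
    val b σ = σ 0 + b * val b (fun k : Fin n => σ k.succ) := by
  unfold val
  rw [Fin.sum_univ_succ, mul_sum]
  simp only [Fin.val_zero, pow_zero, mul_one, Fin.val_succ]
  congr 1
  refine sum_congr rfl (fun k _ => ?_)
  ring

theorem val_lin (b : ℕ) {n : ℕ} (i : ℤ) (ξ τ : Fin n → ℤ) :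
    val b (fun k => ξ k - i * τ k) = val b ξ - i * val b τ := by
  unfold val
  rw [mul_sum, ← sum_sub_distrib]
  refine sum_congr rfl (fun k _ => ?_)
  ring

theorem val_inj (b : ℕ) (hb : 2 ≤ b) {n : ℕ} (σ σ' : Fin n → ℤ)
    (h : ∀ k, (b : ℤ) ∣ σ k - σ' k → σ k = σ' k) (hv : val b σ = val b σ') : σ = σ' := by
  induction n with
  | zero =>
    funext k
    exact k.elim0
  | succ n ih =>
    rw [val_succ, val_succ] at hv
    have hb0 : (b : ℤ) ≠ 0 := by
      have : b ≠ 0 := by omega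
      exact_mod_cast this
    have h0 : σ 0 = σ' 0 := by
      apply h 0
      exact ⟨val b (fun k : Fin n => σ' k.succ) - val b (fun k : Fin n => σ k.succ), by linarith⟩
    have h1 : val b (fun k : Fin n => σ k.succ) = val b (fun k : Fin n => σ' k.succ) := by
      have : (b : ℤ) * val b (fun k : Fin n => σ k.succ)
          = b * val b (fun k : Fin n => σ' k.succ) := by linarith
      exact mul_left_cancel₀ hb0 this
    have h2 := ih (fun k : Fin n => σ k.succ) (fun k : Fin n => σ' k.succ)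
      (fun k => h k.succ) h1
    funext k
    refine Fin.cases h0 (fun j => ?_) k
    exact congrFun h2 j

theorem val_bound (b : ℕ) (hb : 2 ≤ b) {n : ℕ} (σ : Fin n → ℤ) (B : ℤ)
    (h : ∀ k, |σ k| ≤ B) : |val b σ| ≤ B * ((b : ℤ) ^ n - 1) := by
  induction n with
  | zero =>
    simp [val]
  | succ n ih =>
    rw [val_succ]
    have h1 := ih (fun k : Fin n => σ k.succ) (fun k => h k.succ)
    have h0 := h 0
    have hbz : (2 : ℤ) ≤ b := by exact_mod_cast hb
    have hB : 0 ≤ B := le_trans (abs_nonneg _) h0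
    calc |σ 0 + b * val b (fun k : Fin n => σ k.succ)|
        ≤ |σ 0| + |(b : ℤ) * val b (fun k : Fin n => σ k.succ)| := abs_add_le _ _
      _ = |σ 0| + b * |val b (fun k : Fin n => σ k.succ)| := by
          rw [abs_mul, abs_of_nonneg (by linarith : (0 : ℤ) ≤ b)]
      _ ≤ B + b * (B * ((b : ℤ) ^ n - 1)) := by
          have : (b : ℤ) * |val b (fun k : Fin n => σ k.succ)| ≤ b * (B * ((b : ℤ) ^ n - 1)) :=
            mul_le_mul_of_nonneg_left h1 (by linarith)
          linarith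
      _ ≤ B * ((b : ℤ) ^ (n + 1) - 1) := by
          have : B * ((b : ℤ) ^ (n + 1) - 1) - (B + b * (B * ((b : ℤ) ^ n - 1)))
              = B * ((b : ℤ) - 2) := by ring
          have h3 : 0 ≤ B * ((b : ℤ) - 2) := mul_nonneg hB (by linarith)
          linarith

/-- push-forward to `ℤ` of the `n`-fold product of the mass `q` on `S` under `val` -/
noncomputable def Qn (S : Finset ℤ) (q : ℤ → ℝ) (b n : ℕ) (y : ℤ) : ℝ :=
  ∑ σ ∈ (Fintype.piFinset (fun _ : Fin n => S)).filter (fun σ => val b σ = y), ∏ k, q (σ k)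

/-- the set of values of digit vectors with digits in `S` -/
def Sn (S : Finset ℤ) (b n : ℕ) : Finset ℤ :=
  (Fintype.piFinset (fun _ : Fin n => S)).image (val b)

theorem Qn_nonneg (S : Finset ℤ) (q : ℤ → ℝ) (hq : ∀ s, 0 ≤ q s) (b n : ℕ) (y : ℤ) :
    0 ≤ Qn S q b n y :=
  sum_nonneg (fun _ _ => prod_nonneg (fun _ _ => hq _))

theorem Qn_mass (S : Finset ℤ) (q : ℤ → ℝ) (b n : ℕ) :
    ∑ y ∈ Sn S b n, Qn S q b n y = (∑ s ∈ S, q s) ^ n := by
  unfold Qn Sn
  rw [sum_fiberwise_of_maps_to (fun σ hσ => mem_image_of_mem _ hσ)]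
  have := Finset.prod_univ_sum (fun _ : Fin n => S) (fun _ s => q s)
  rw [← this]
  simp

theorem le_Qn (S : Finset ℤ) (q : ℤ → ℝ) (hq : ∀ s, 0 ≤ q s) (b n : ℕ) (σ : Fin n → ℤ)
    (hσ : ∀ k, σ k ∈ S) : ∏ k, q (σ k) ≤ Qn S q b n (val b σ) := by
  unfold Qn
  refine single_le_sum (f := fun σ : Fin n → ℤ => ∏ k, q (σ k))
    (fun _ _ => prod_nonneg (fun _ _ => hq _)) ?_
  rw [mem_filter, Fintype.mem_piFinset]
  exact ⟨hσ, rfl⟩

theorem mem_Sn (S : Finset ℤ) (b n : ℕ) (σ : Fin n → ℤ) (hσ : ∀ k, σ k ∈ S) :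
    val b σ ∈ Sn S b n :=
  mem_image_of_mem _ (Fintype.mem_piFinset.2 hσ)

end Vale.Agent.P141
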