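import Mathlib
import Vale.Agent.P141.Defs
import Vale.Agent.P141.Bump

namespace Vale.Agent.P141

open MeasureTheory Filter Topology Finset
open scoped ENNReal NNReal SchwartzMap

theorem comb_continuous (S : Finset ℤ) (o : ℝ) : Continuous (comb S o) :=
  (comb_contDiff S o).continuous

/-- pointwise lower bound for `T` of three combs on a good interval -/
theorem T_lower (S₁ S₂ S₃ : Finset ℤ) (M : ℝ) (hM : 0 ≤ M) (hS : ∀ s ∈ S₁, |(s : ℝ)| ≤ M)
    (x₀ t₀ : ℤ) (hx₀ : |(x₀ : ℝ)| ≤ M) (h1 : x₀ - t₀ ∈ S₁) (h2 : x₀ - 2 * t₀ ∈ S₂)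
    (h3 : x₀ - 3 * t₀ ∈ S₃) (x : ℝ) (hx : x ∈ Set.Icc (8 * (x₀ : ℝ)) (8 * (x₀ : ℝ) + 1)) :
    (32 * M + 9)⁻¹ ≤ ‖T (combS S₁ (-(16 * M + 4))) (combS S₂ (-(2 * (16 * M + 4))))
      (combS S₃ (-(3 * (16 * M + 4)))) x‖ := by
  set θ : ℝ := 16 * M + 4 with hθ
  set R₀ : ℝ := 32 * M + 9 with hR₀
  obtain ⟨hx1, hx2⟩ := hx
  have hx₀' := abs_le.1 hx₀
  set Ψ : ℝ → ℝ := fun t => comb S₁ (-θ) (x - t) * comb S₂ (-(2 * θ)) (x - 2 * t) *
    comb S₃ (-(3 * θ)) (x - 3 * t) * (max t 1)⁻¹ with hΨ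
  have hvan : ∀ t : ℝ, (t ≤ 1 ∨ R₀ ≤ t) → comb S₁ (-θ) (x - t) = 0 := by
    intro t ht
    apply comb_eq_zero
    intro s hs
    have hs' := abs_le.1 (hS s hs)
    rcases ht with ht | ht
    · right
      linarith [hs'.1, hs'.2, hx₀'.1, hx₀'.2]
    · left
      linarith [hs'.1, hs'.2, hx₀'.1, hx₀'.2]
  have hint : ∀ t : ℝ, combS S₁ (-θ) (x - t) * combS S₂ (-(2 * θ)) (x - 2 * t) *
      combS S₃ (-(3 * θ)) (x - 3 * t) / (t : ℂ) = ((Ψ t : ℝ) : ℂ) := by
    intro t
    simp only [combS_apply, hΨ]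
    by_cases ht : t ≤ 1
    · rw [hvan t (Or.inl ht)]
      simp
    · have : max t 1 = t := max_eq_left (le_of_lt (not_le.1 ht))
      rw [this]
      push_cast
      rw [div_eq_mul_inv]
  have hΨ0 : ∀ t : ℝ, (t ≤ 1 ∨ R₀ ≤ t) → Ψ t = 0 := by
    intro t ht
    simp only [hΨ]
    rw [hvan t ht]
    ring
  have hΨnn : ∀ t : ℝ, 0 ≤ Ψ t := by
    intro t
    simp only [hΨ]
    have := comb_nonneg S₁ (-θ) (x - t)
    have := comb_nonneg S₂ (-(2 * θ)) (x - 2 * t)
    have := comb_nonneg S₃ (-(3 * θ)) (x - 3 * t)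
    have : 0 ≤ (max t 1)⁻¹ := inv_nonneg.2 (le_trans zero_le_one (le_max_right _ _))
    positivity
  have hΨc : Continuous Ψ := by
    simp only [hΨ]
    have c1 : Continuous fun t : ℝ => comb S₁ (-θ) (x - t) :=
      (comb_continuous _ _).comp (continuous_const.sub continuous_id)
    have c2 : Continuous fun t : ℝ => comb S₂ (-(2 * θ)) (x - 2 * t) :=
      (comb_continuous _ _).comp (continuous_const.sub (continuous_const.mul continuous_id))
    have c3 : Continuous fun t : ℝ => comb S₃ (-(3 * θ)) (x - 3 * t) :=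
      (comb_continuous _ _).comp (continuous_const.sub (continuous_const.mul continuous_id))
    have c4 : Continuous fun t : ℝ => (max t 1)⁻¹ := by
      apply Continuous.inv₀ (continuous_id.max continuous_const)
      intro t
      have : (0 : ℝ) < max t 1 := lt_of_lt_of_le zero_lt_one (le_max_right _ _)
      exact this.ne'
    exact ((c1.mul c2).mul c3).mul c4
  have hΨcs : HasCompactSupport Ψ := by
    apply HasCompactSupport.intro (isCompact_Icc (a := (1 : ℝ)) (b := R₀))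
    intro t ht
    apply hΨ0
    rw [Set.mem_Icc, not_and_or] at ht
    rcases ht with ht | ht
    · exact Or.inl (le_of_lt (not_le.1 ht))
    · exact Or.inr (le_of_lt (not_le.1 ht))
  have hΨi : Integrable Ψ volume := hΨc.integrable_of_hasCompactSupport hΨcs
  have hR₀pos : 0 < R₀ := by rw [hR₀]; linarith
  -- the truncations are eventually constant
  have hev : ∀ᶠ q : ℝ × ℝ in (𝓝[>] (0 : ℝ)) ×ˢ (atTop : Filter ℝ),
      truncT (combS S₁ (-θ)) (combS S₂ (-(2 * θ))) (combS S₃ (-(3 * θ))) q.1 q.2 x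
        = (((∫ t, Ψ t) : ℝ) : ℂ) := by
    have e1 : ∀ᶠ ε in 𝓝[>] (0 : ℝ), ε < 1 :=
      mem_nhdsWithin_of_mem_nhds (Iio_mem_nhds one_pos)
    have e2 : ∀ᶠ R in (atTop : Filter ℝ), R₀ < R := eventually_gt_atTop R₀
    filter_upwards [e1.prod_mk e2] with q hq
    obtain ⟨hq1, hq2⟩ := hq
    unfold truncT
    rw [setIntegral_eq_integral_of_forall_compl_eq_zero]
    · simp_rw [hint]
      exact integral_ofReal
    · intro t ht
      rw [hint, hΨ0, Complex.ofReal_zero]
      simp only [Set.mem_ofPred_eq, not_and_or, not_lt] at ht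
      rcases ht with ht | ht
      · left
        exact le_trans (le_abs_self t) (le_trans ht hq1.le)
      · rcases le_total 0 t with h0 | h0
        · right
          rw [abs_of_nonneg h0] at ht
          linarith
        · left
          linarith
  have hT : T (combS S₁ (-θ)) (combS S₂ (-(2 * θ))) (combS S₃ (-(3 * θ))) x
      = (((∫ t, Ψ t) : ℝ) : ℂ) := by
    unfold T
    apply Tendsto.limUnder_eq
    exact tendsto_const_nhds.congr' (hev.mono (fun _ h => h.symm))
  rw [hT, Complex.norm_real, Real.norm_eq_abs]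
  refine le_trans ?_ (le_abs_self _)
  -- lower bound of the integral
  set a : ℝ := θ + 8 * (t₀ : ℝ) with ha
  have hgood : ∀ t ∈ Set.Icc a (a + 1), R₀⁻¹ ≤ Ψ t := by
    intro t ht
    obtain ⟨ht1, ht2⟩ := ht
    have g1 : 1 ≤ comb S₁ (-θ) (x - t) := by
      apply one_le_comb h1 <;> push_cast <;> linarith
    have g2 : 1 ≤ comb S₂ (-(2 * θ)) (x - 2 * t) := by
      apply one_le_comb h2 <;> push_cast <;> linarith
    have g3 : 1 ≤ comb S₃ (-(3 * θ)) (x - 3 * t) := by
      apply one_le_comb h3 <;> push_cast <;> linarith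
    have htR : 1 < t ∧ t < R₀ := by
      by_contra hcon
      rw [not_and_or, not_lt, not_lt] at hcon
      rw [hvan t hcon] at g1
      linarith
    have hmax : max t 1 = t := max_eq_left htR.1.le
    have g4 : R₀⁻¹ ≤ (max t 1)⁻¹ := by
      rw [hmax]
      exact inv_anti₀ (by linarith) htR.2.le
    simp only [hΨ]
    have hR0 : 0 ≤ R₀⁻¹ := inv_nonneg.2 hR₀pos.le
    calc R₀⁻¹ = 1 * 1 * 1 * R₀⁻¹ := by ring
      _ ≤ comb S₁ (-θ) (x - t) * comb S₂ (-(2 * θ)) (x - 2 * t) *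
          comb S₃ (-(3 * θ)) (x - 3 * t) * (max t 1)⁻¹ := by
        gcongr
  have hstep : R₀⁻¹ * volume.real (Set.Icc a (a + 1)) ≤ ∫ t in Set.Icc a (a + 1), Ψ t :=
    setIntegral_ge_of_const_le_real measurableSet_Icc (by simp) hgood hΨi.integrableOn
  have hvol : volume.real (Set.Icc a (a + 1)) = 1 := by
    simp [Measure.real, Real.volume_Icc]
  rw [hvol, mul_one] at hstep
  exact le_trans hstep (setIntegral_le_integral hΨi (Eventually.of_forall hΨnn))

end Vale.Agent.P141
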