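import Mathlib
import Vale.Agent.P141.Defs
import Vale.Agent.P141.Bump

namespace Vale.Agent.P141

open MeasureTheory Filter Topology Finset
open scoped ENNReal NNReal SchwartzMap

theorem combS_eLpNorm_le' (S : Finset ℤ) (o : ℝ) (p : ℝ≥0∞) (K : ℝ) (hK : (S.card : ℝ) ≤ K) :
    eLpNorm (combS S o) p volume ≤ ENNReal.ofReal ((6 * K) ^ p.toReal⁻¹) := by
  have h0 : (0 : ℝ) ≤ K := le_trans (Nat.cast_nonneg _) hK
  refine le_trans (combS_eLpNorm_le S o p) ?_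
  rw [← ENNReal.ofReal_rpow_of_nonneg (by positivity) (inv_nonneg.2 ENNReal.toReal_nonneg)]
  apply ENNReal.rpow_le_rpow _ (inv_nonneg.2 ENNReal.toReal_nonneg)
  rw [ENNReal.ofReal_mul (by norm_num)]
  gcongr
  · norm_num
  · rw [← ENNReal.ofReal_natCast]
    exact ENNReal.ofReal_le_ofReal hK

theorem Lr_lower (F : ℝ → ℂ) (X₀ : Finset ℤ) (c : ℝ) (hc : 0 ≤ c)
    (hF : ∀ x₀ ∈ X₀, ∀ x ∈ Set.Icc (8 * (x₀ : ℝ)) (8 * (x₀ : ℝ) + 1), c ≤ ‖F x‖)
    (r : ℝ≥0∞) (hr0 : 0 < r) (hr1 : r < ∞) :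
    ENNReal.ofReal (c * (X₀.card : ℝ) ^ r.toReal⁻¹) ≤ eLpNorm F r volume := by
  have hrpos : 0 < r.toReal := ENNReal.toReal_pos hr0.ne' hr1.ne
  set X : Set ℝ := ⋃ x₀ ∈ X₀, Set.Icc (8 * (x₀ : ℝ)) (8 * (x₀ : ℝ) + 1) with hX
  have hXm : MeasurableSet X := Finset.measurableSet_biUnion _ (fun _ _ => measurableSet_Icc)
  have hXv : volume X = (X₀.card : ℝ≥0∞) := by
    rw [hX, measure_biUnion_finset]
    · have : ∀ x₀ ∈ X₀, volume (Set.Icc (8 * (x₀ : ℝ)) (8 * (x₀ : ℝ) + 1)) = 1 := by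
        intro x₀ _
        rw [Real.volume_Icc]
        simp
      rw [sum_congr rfl this]
      simp
    · intro u _ v _ huv
      rw [Function.onFun, Set.disjoint_left]
      intro y hy1 hy2
      rcases lt_or_gt_of_ne huv with hlt | hgt
      · have : (u : ℝ) + 1 ≤ v := by exact_mod_cast hlt
        linarith [hy1.1, hy1.2, hy2.1, hy2.2]
      · have : (v : ℝ) + 1 ≤ u := by exact_mod_cast hgt
        linarith [hy1.1, hy1.2, hy2.1, hy2.2]
    · intro _ _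
      exact measurableSet_Icc
  rw [eLpNorm_eq_lintegral_rpow_enorm_toReal hr0.ne' hr1.ne]
  have h1 : (ENNReal.ofReal c) ^ r.toReal * (X₀.card : ℝ≥0∞) ≤ ∫⁻ x, ‖F x‖ₑ ^ r.toReal := by
    rw [← hXv, ← lintegral_indicator_const hXm]
    apply lintegral_mono
    intro x
    by_cases hx : x ∈ X
    · rw [Set.indicator_of_mem hx]
      apply ENNReal.rpow_le_rpow _ hrpos.le
      simp only [hX, Set.mem_iUnion] at hx
      obtain ⟨x₀, hx₀, hxx⟩ := hx
      rw [← ofReal_norm]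
      exact ENNReal.ofReal_le_ofReal (hF x₀ hx₀ x hxx)
    · rw [Set.indicator_of_notMem hx]
      exact zero_le
  have h2 := ENNReal.rpow_le_rpow h1 (by positivity : 0 ≤ 1 / r.toReal)
  refine le_trans (le_of_eq ?_) h2
  rw [ENNReal.mul_rpow_of_nonneg _ _ (by positivity), ← ENNReal.rpow_mul,
    mul_one_div_cancel hrpos.ne', ENNReal.rpow_one, ENNReal.ofReal_mul hc,
    ← ENNReal.ofReal_natCast, ENNReal.ofReal_rpow_of_nonneg (Nat.cast_nonneg _) (by positivity),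
    one_div]

end Vale.Agent.P141
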