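import Mathlib
import Vale.Agent.P141.Defs
import Vale.Agent.P141.Comb
import Vale.Agent.P141.Bump
import Vale.Agent.P141.Lower
import Vale.Agent.P141.Norms

namespace Vale.Agent.P141

open MeasureTheory Filter Topology Finset
open scoped ENNReal NNReal SchwartzMap

theorem no_bound (A E K : ℝ) (hE : 0 ≤ E) (hAE : E < A) (h : ∀ n : ℕ, A ^ n ≤ K * E ^ n) :
    False := by
  rcases eq_or_lt_of_le hE with h0 | h0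
  · have := h 1
    rw [← h0] at this
    simp only [pow_one, mul_zero] at this
    linarith
  · have hq : 1 < A / E := (one_lt_div h0).2 hAE
    obtain ⟨n, hn⟩ := pow_unbounded_of_one_lt K hq
    have h1 := h n
    rw [div_pow, lt_div_iff₀ (pow_pos h0 n)] at hn
    linarith

theorem pow_rpow_comm (a : ℝ) (ha : 0 ≤ a) (n : ℕ) (u : ℝ) : (a ^ n) ^ u = (a ^ u) ^ n := by
  rw [← Real.rpow_natCast, ← Real.rpow_mul ha, mul_comm, Real.rpow_mul ha, Real.rpow_natCast]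

theorem bound_real {G : Finset (ℤ × ℤ)} {b : ℕ} (hb : 2 ≤ b) (B : ℤ) (hB0 : 0 ≤ B)
    (hB : ∀ g ∈ G, |g.1| ≤ B ∧ |g.2| ≤ B) (n : ℕ) :
    ∀ v ∈ Gn G b n, |(v.1 : ℝ)| ≤ (B : ℝ) * (b : ℝ) ^ n ∧ |(v.2 : ℝ)| ≤ (B : ℝ) * (b : ℝ) ^ n := by
  intro v hv
  obtain ⟨h1, h2⟩ := Gn_bound hb B hB n v hv
  have hB0' : (0 : ℝ) ≤ (B : ℝ) := by exact_mod_cast hB0
  have e1 : ((|v.1| : ℤ) : ℝ) ≤ ((B * ((b : ℤ) ^ n - 1) : ℤ) : ℝ) := by exact_mod_cast h1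
  have e2 : ((|v.2| : ℤ) : ℝ) ≤ ((B * ((b : ℤ) ^ n - 1) : ℤ) : ℝ) := by exact_mod_cast h2
  push_cast at e1 e2
  constructor <;> linarith

/-- the inequality forced at level `n` by boundedness with constant `C` -/
theorem level_ineq (G : Finset (ℤ × ℤ)) (b : ℕ) (hb : 2 ≤ b)
    (hinj : ∀ g ∈ G, ∀ h ∈ G, (b : ℤ) ∣ g.1 - h.1 → g = h)
    (p₁ p₂ p₃ r : ℝ≥0∞) (hr0 : 0 < r) (hr1 : r < ∞) (C : ℝ≥0)
    (hC : ∀ f₁ f₂ f₃ : 𝓢(ℝ, ℂ), eLpNorm (T f₁ f₂ f₃) r volume ≤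
      C * eLpNorm f₁ p₁ volume * eLpNorm f₂ p₂ volume * eLpNorm f₃ p₃ volume)
    (B : ℤ) (hB0 : 0 ≤ B) (hB : ∀ g ∈ G, |g.1| ≤ B ∧ |g.2| ≤ B) (n : ℕ) :
    (32 * (2 * (B : ℝ) * (b : ℝ) ^ n) + 9)⁻¹ * ((G.card : ℝ) ^ n) ^ r.toReal⁻¹ ≤
      (C : ℝ) * (6 * ((proj 1 G).card : ℝ) ^ n) ^ p₁.toReal⁻¹ *
        (6 * ((proj 2 G).card : ℝ) ^ n) ^ p₂.toReal⁻¹ *
        (6 * ((proj 3 G).card : ℝ) ^ n) ^ p₃.toReal⁻¹ := by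
  set H := Gn G b n with hH
  set M : ℝ := 2 * (B : ℝ) * (b : ℝ) ^ n with hM
  have hbR : (2 : ℝ) ≤ b := by exact_mod_cast hb
  have hBR : (0 : ℝ) ≤ (B : ℝ) := by exact_mod_cast hB0
  have hM0 : 0 ≤ M := by positivity
  have hbound := bound_real hb B hB0 hB n
  have hS : ∀ s ∈ proj 1 H, |(s : ℝ)| ≤ M := by
    intro s hs
    simp only [proj, mem_image] at hs
    obtain ⟨v, hv, rfl⟩ := hs
    obtain ⟨h1, h2⟩ := hbound v hv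
    push_cast
    rw [one_mul]
    calc |(v.1 : ℝ) - (v.2 : ℝ)| ≤ |(v.1 : ℝ)| + |(v.2 : ℝ)| := abs_sub _ _
      _ ≤ M := by rw [hM]; linarith
  have hlow : ∀ x₀ ∈ H.image Prod.fst, ∀ x ∈ Set.Icc (8 * (x₀ : ℝ)) (8 * (x₀ : ℝ) + 1),
      (32 * M + 9)⁻¹ ≤ ‖T (combS (proj 1 H) (-(16 * M + 4))) (combS (proj 2 H) (-(2 * (16 * M + 4))))
        (combS (proj 3 H) (-(3 * (16 * M + 4)))) x‖ := by
    intro x₀ hx₀ x hx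
    simp only [mem_image] at hx₀
    obtain ⟨v, hv, rfl⟩ := hx₀
    obtain ⟨h1, h2⟩ := hbound v hv
    have hBb : 0 ≤ (B : ℝ) * (b : ℝ) ^ n := by positivity
    apply T_lower (proj 1 H) (proj 2 H) (proj 3 H) M hM0 hS v.1 v.2 _ _ _ _ x hx
    · rw [hM]; linarith
    · simp only [proj, mem_image]
      exact ⟨v, hv, by ring⟩
    · simp only [proj, mem_image]
      exact ⟨v, hv, rfl⟩
    · simp only [proj, mem_image]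
      exact ⟨v, hv, rfl⟩
  have hL := Lr_lower _ (H.image Prod.fst) (32 * M + 9)⁻¹ (by positivity) hlow r hr0 hr1
  rw [proj_zero_card hb hinj n] at hL
  have hU := hC (combS (proj 1 H) (-(16 * M + 4))) (combS (proj 2 H) (-(2 * (16 * M + 4))))
    (combS (proj 3 H) (-(3 * (16 * M + 4))))
  have c1 : ((proj 1 H).card : ℝ) ≤ ((proj 1 G).card : ℝ) ^ n := by
    exact_mod_cast proj_card_le (G := G) (b := b) 1 n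
  have c2 : ((proj 2 H).card : ℝ) ≤ ((proj 2 G).card : ℝ) ^ n := by
    exact_mod_cast proj_card_le (G := G) (b := b) 2 n
  have c3 : ((proj 3 H).card : ℝ) ≤ ((proj 3 G).card : ℝ) ^ n := by
    exact_mod_cast proj_card_le (G := G) (b := b) 3 n
  have n1 := combS_eLpNorm_le' (proj 1 H) (-(16 * M + 4)) p₁ _ c1
  have n2 := combS_eLpNorm_le' (proj 2 H) (-(2 * (16 * M + 4))) p₂ _ c2
  have n3 := combS_eLpNorm_le' (proj 3 H) (-(3 * (16 * M + 4))) p₃ _ c3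
  have hchain : ENNReal.ofReal ((32 * M + 9)⁻¹ * ((G.card ^ n : ℕ) : ℝ) ^ r.toReal⁻¹) ≤
      ENNReal.ofReal ((C : ℝ) * (6 * ((proj 1 G).card : ℝ) ^ n) ^ p₁.toReal⁻¹ *
        (6 * ((proj 2 G).card : ℝ) ^ n) ^ p₂.toReal⁻¹ *
        (6 * ((proj 3 G).card : ℝ) ^ n) ^ p₃.toReal⁻¹) := by
    refine le_trans hL (le_trans hU ?_)
    rw [ENNReal.ofReal_mul (by positivity), ENNReal.ofReal_mul (by positivity),
      ENNReal.ofReal_mul (by positivity), ENNReal.ofReal_coe_nnreal]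
    gcongr
  have hreal := (ENNReal.ofReal_le_ofReal_iff (by positivity)).1 hchain
  push_cast at hreal
  exact hreal

theorem algebra_step (N d₁ d₂ d₃ u u₁ u₂ u₃ C B β : ℝ) (n : ℕ) (hN : 0 ≤ N) (hd₁ : 0 ≤ d₁)
    (hd₂ : 0 ≤ d₂) (hd₃ : 0 ≤ d₃) (hC : 0 ≤ C) (hB : 0 ≤ B) (hβ : 1 ≤ β)
    (h : (32 * (2 * B * β ^ n) + 9)⁻¹ * (N ^ n) ^ u ≤
      C * (6 * d₁ ^ n) ^ u₁ * (6 * d₂ ^ n) ^ u₂ * (6 * d₃ ^ n) ^ u₃) :
    (N ^ u) ^ n ≤ (C * ((6 : ℝ) ^ u₁ * (6 : ℝ) ^ u₂ * (6 : ℝ) ^ u₃) * (64 * B + 9)) *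
      (β * (d₁ ^ u₁ * d₂ ^ u₂ * d₃ ^ u₃)) ^ n := by
  have e0 : (N ^ n) ^ u = (N ^ u) ^ n := pow_rpow_comm _ hN n u
  have e1 : (6 * d₁ ^ n) ^ u₁ = (6 : ℝ) ^ u₁ * (d₁ ^ u₁) ^ n := by
    rw [Real.mul_rpow (by norm_num) (by positivity), pow_rpow_comm _ hd₁]
  have e2 : (6 * d₂ ^ n) ^ u₂ = (6 : ℝ) ^ u₂ * (d₂ ^ u₂) ^ n := by
    rw [Real.mul_rpow (by norm_num) (by positivity), pow_rpow_comm _ hd₂]
  have e3 : (6 * d₃ ^ n) ^ u₃ = (6 : ℝ) ^ u₃ * (d₃ ^ u₃) ^ n := by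
    rw [Real.mul_rpow (by norm_num) (by positivity), pow_rpow_comm _ hd₃]
  rw [e0, e1, e2, e3] at h
  have hβn : (1 : ℝ) ≤ β ^ n := one_le_pow₀ hβ
  have hpos : 0 < 32 * (2 * B * β ^ n) + 9 := by positivity
  rw [inv_mul_le_iff₀ hpos] at h
  have hMle : 32 * (2 * B * β ^ n) + 9 ≤ (64 * B + 9) * β ^ n := by
    have : (64 * B + 9) * β ^ n = 32 * (2 * B * β ^ n) + 9 * β ^ n := by ring
    rw [this]
    linarith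
  have hrhs0 : 0 ≤ C * ((6 : ℝ) ^ u₁ * (d₁ ^ u₁) ^ n) * ((6 : ℝ) ^ u₂ * (d₂ ^ u₂) ^ n) *
      ((6 : ℝ) ^ u₃ * (d₃ ^ u₃) ^ n) := by positivity
  calc (N ^ u) ^ n
      ≤ (32 * (2 * B * β ^ n) + 9) * (C * ((6 : ℝ) ^ u₁ * (d₁ ^ u₁) ^ n) *
        ((6 : ℝ) ^ u₂ * (d₂ ^ u₂) ^ n) * ((6 : ℝ) ^ u₃ * (d₃ ^ u₃) ^ n)) := h
    _ ≤ ((64 * B + 9) * β ^ n) * (C * ((6 : ℝ) ^ u₁ * (d₁ ^ u₁) ^ n) *
        ((6 : ℝ) ^ u₂ * (d₂ ^ u₂) ^ n) * ((6 : ℝ) ^ u₃ * (d₃ ^ u₃) ^ n)) :=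
        mul_le_mul_of_nonneg_right hMle hrhs0
    _ = (C * ((6 : ℝ) ^ u₁ * (6 : ℝ) ^ u₂ * (6 : ℝ) ^ u₃) * (64 * B + 9)) *
        (β * (d₁ ^ u₁ * d₂ ^ u₂ * d₃ ^ u₃)) ^ n := by
        rw [mul_pow, mul_pow, mul_pow]; ring

/-- General criterion: a finite set `G` of integer pairs `(x,t)` whose first coordinates are
pairwise incongruent modulo `b` forces unboundedness of `T` at every tuple with
`b * ∏ |{x - i t}|^(1/pᵢ) < |G|^(1/r)`. -/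
theorem unbounded_of_config (G : Finset (ℤ × ℤ)) (b : ℕ) (hb : 2 ≤ b)
    (hinj : ∀ g ∈ G, ∀ h ∈ G, (b : ℤ) ∣ g.1 - h.1 → g = h)
    (p₁ p₂ p₃ r : ℝ≥0∞) (hr0 : 0 < r) (hr1 : r < ∞)
    (hcond : (b : ℝ) * (((proj 1 G).card : ℝ) ^ p₁.toReal⁻¹ * ((proj 2 G).card : ℝ) ^ p₂.toReal⁻¹
      * ((proj 3 G).card : ℝ) ^ p₃.toReal⁻¹) < (G.card : ℝ) ^ r.toReal⁻¹) :
    ¬ BoundedAt p₁ p₂ p₃ r := by
  rintro ⟨C, hC⟩
  set B : ℤ := ∑ g ∈ G, (|g.1| + |g.2|) with hBdef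
  have hB : ∀ g ∈ G, |g.1| ≤ B ∧ |g.2| ≤ B := by
    intro g hg
    have h1 : |g.1| + |g.2| ≤ B :=
      single_le_sum (f := fun g : ℤ × ℤ => |g.1| + |g.2|)
        (fun g _ => add_nonneg (abs_nonneg _) (abs_nonneg _)) hg
    constructor
    · linarith [abs_nonneg g.2]
    · linarith [abs_nonneg g.1]
  have hB0 : 0 ≤ B := sum_nonneg (fun g _ => add_nonneg (abs_nonneg _) (abs_nonneg _))
  have hbR : (1 : ℝ) ≤ b := by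
    have : 1 ≤ b := by omega
    exact_mod_cast this
  have hBR : (0 : ℝ) ≤ (B : ℝ) := by exact_mod_cast hB0
  refine no_bound _ _ ((C : ℝ) * ((6 : ℝ) ^ p₁.toReal⁻¹ * (6 : ℝ) ^ p₂.toReal⁻¹ *
    (6 : ℝ) ^ p₃.toReal⁻¹) * (64 * (B : ℝ) + 9)) (by positivity) hcond (fun n => ?_)
  exact algebra_step _ _ _ _ _ _ _ _ (C : ℝ) (B : ℝ) (b : ℝ) n (Nat.cast_nonneg _)
    (Nat.cast_nonneg _) (Nat.cast_nonneg _) (Nat.cast_nonneg _) C.coe_nonneg hBR hbR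
    (level_ineq G b hb hinj p₁ p₂ p₃ r hr0 hr1 C hC B hB0 hB n)

end Vale.Agent.P141
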