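import Mathlib
import Vale.Agent.P141.Defs
import Vale.Agent.P141.Bump

namespace Vale.Agent.P141

open MeasureTheory Filter Topology Finset
open scoped ENNReal NNReal SchwartzMap

/-- a weighted sum of translated bumps centred at the points `8 s + o`, `s ∈ S` -/
noncomputable def wcomb (S : Finset ℤ) (a : ℤ → ℝ) (o : ℝ) (y : ℝ) : ℝ :=
  ∑ s ∈ S, a s * bmp (y - (8 * (s : ℝ) + o))

theorem wcomb_nonneg (S : Finset ℤ) (a : ℤ → ℝ) (ha : ∀ s, 0 ≤ a s) (o y : ℝ) :
    0 ≤ wcomb S a o y :=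
  sum_nonneg (fun _ _ => mul_nonneg (ha _) bmp.nonneg)

theorem wcomb_eq_zero {S : Finset ℤ} {a : ℤ → ℝ} {o y : ℝ}
    (h : ∀ s ∈ S, y - (8 * (s : ℝ) + o) ≤ -4 ∨ 2 ≤ y - (8 * (s : ℝ) + o)) : wcomb S a o y = 0 :=
  sum_eq_zero (fun s hs => by rw [bmp_zero (h s hs), mul_zero])

theorem le_wcomb {S : Finset ℤ} {a : ℤ → ℝ} (ha : ∀ s, 0 ≤ a s) {o y : ℝ} {s : ℤ} (hs : s ∈ S)
    (h1 : -3 ≤ y - (8 * (s : ℝ) + o)) (h2 : y - (8 * (s : ℝ) + o) ≤ 1) : a s ≤ wcomb S a o y := by
  have := single_le_sum (f := fun s : ℤ => a s * bmp (y - (8 * (s : ℝ) + o)))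
    (fun _ _ => mul_nonneg (ha _) bmp.nonneg) hs
  rw [bmp_one h1 h2, mul_one] at this
  exact this

/-- on the support of the bump number `s` the weighted comb is at most `a s` -/
theorem wcomb_le {S : Finset ℤ} {a : ℤ → ℝ} (ha : ∀ s, 0 ≤ a s) {o y : ℝ} {s : ℤ} (hs : s ∈ S)
    (h1 : -4 < y - (8 * (s : ℝ) + o)) (h2 : y - (8 * (s : ℝ) + o) < 2) : wcomb S a o y ≤ a s := by
  unfold wcomb
  rw [sum_eq_single_of_mem s hs]
  · exact mul_le_of_le_one_right (ha s) bmp.le_one
  · intro s' _ hne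
    rw [bmp_zero, mul_zero]
    rcases lt_or_gt_of_ne hne with hlt | hgt
    · right
      have : (s' : ℝ) + 1 ≤ s := by exact_mod_cast hlt
      linarith
    · left
      have : (s : ℝ) + 1 ≤ s' := by exact_mod_cast hgt
      linarith

theorem wcomb_contDiff (S : Finset ℤ) (a : ℤ → ℝ) (o : ℝ) :
    ContDiff ℝ ((⊤ : ℕ∞) : WithTop ℕ∞) (wcomb S a o) := by
  unfold wcomb
  apply ContDiff.sum
  intro s _
  exact contDiff_const.mul (bmp.contDiff.comp (contDiff_id.sub contDiff_const))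

theorem wcomb_continuous (S : Finset ℤ) (a : ℤ → ℝ) (o : ℝ) : Continuous (wcomb S a o) :=
  (wcomb_contDiff S a o).continuous

theorem wcomb_hasCompactSupport (S : Finset ℤ) (a : ℤ → ℝ) (o : ℝ) :
    HasCompactSupport (wcomb S a o) := by
  classical
  induction S using Finset.induction_on with
  | empty =>
    have : wcomb ∅ a o = fun _ => 0 := by
      funext y
      simp [wcomb]
    rw [this]
    exact HasCompactSupport.zero
  | insert s S hs ih =>
    have : wcomb (insert s S) a o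
        = (fun y => a s * bmp (y - (8 * (s : ℝ) + o))) + wcomb S a o := by
      funext y
      simp [wcomb, sum_insert hs]
    rw [this]
    refine HasCompactSupport.add ?_ ih
    exact (bmp.hasCompactSupport.comp_homeomorph (Homeomorph.subRight (8 * (s : ℝ) + o))).mul_left

/-- the weighted comb as a complex Schwartz function -/
noncomputable def wcombS (S : Finset ℤ) (a : ℤ → ℝ) (o : ℝ) : 𝓢(ℝ, ℂ) :=
  HasCompactSupport.toSchwartzMap (f := fun y => ((wcomb S a o y : ℝ) : ℂ))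
    ((wcomb_hasCompactSupport S a o).comp_left Complex.ofReal_zero)
    (Complex.ofRealCLM.contDiff.comp (wcomb_contDiff S a o))

@[simp] theorem wcombS_apply (S : Finset ℤ) (a : ℤ → ℝ) (o y : ℝ) :
    wcombS S a o y = ((wcomb S a o y : ℝ) : ℂ) := rfl

theorem wcomb_one (S : Finset ℤ) (o : ℝ) : wcomb S (fun _ => 1) o = comb S o := by
  funext y
  simp [wcomb, comb]

/-- the `L^p` norm of the comb with weights `Q^(1/p)` -/
theorem wcombS_eLpNorm_le (S : Finset ℤ) (Q : ℤ → ℝ) (hQ : ∀ s, 0 ≤ Q s) (o : ℝ) (p : ℝ≥0∞)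
    (hp : p ≠ 0) :
    eLpNorm (wcombS S (fun s => Q s ^ p.toReal⁻¹) o) p volume
      ≤ ENNReal.ofReal ((6 * ∑ s ∈ S, Q s) ^ p.toReal⁻¹) := by
  rcases eq_or_ne p ∞ with hinf | hfin
  · subst hinf
    simp only [ENNReal.toReal_top, inv_zero, Real.rpow_zero, ENNReal.ofReal_one]
    have hb : ∀ᵐ y ∂(volume : Measure ℝ), ‖wcombS S (fun _ => (1 : ℝ)) o y‖ ≤ 1 := by
      refine Eventually.of_forall (fun y => ?_)
      rw [wcombS_apply, Complex.norm_real, Real.norm_eq_abs, wcomb_one,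
        abs_of_nonneg (comb_nonneg S o y)]
      exact comb_le_one S o y
    have := eLpNormEssSup_le_of_ae_bound hb
    rw [eLpNorm_exponent_top]
    simpa using this
  · have hP : 0 < p.toReal := ENNReal.toReal_pos hp hfin
    set P := p.toReal with hPdef
    have ha : ∀ s, 0 ≤ Q s ^ P⁻¹ := fun s => Real.rpow_nonneg (hQ s) _
    rw [eLpNorm_eq_lintegral_rpow_enorm_toReal hp hfin, ← hPdef]
    have hpt : ∀ y : ℝ, ‖wcombS S (fun s => Q s ^ P⁻¹) o y‖ₑ ^ P ≤
        ∑ s ∈ S, (Set.Icc (8 * (s : ℝ) + o - 4) (8 * (s : ℝ) + o + 2)).indicator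
          (fun _ => ENNReal.ofReal (Q s)) y := by
      intro y
      by_cases h : ∀ s ∈ S, y - (8 * (s : ℝ) + o) ≤ -4 ∨ 2 ≤ y - (8 * (s : ℝ) + o)
      · rw [wcombS_apply, wcomb_eq_zero h]
        simp [hP]
      · push Not at h
        obtain ⟨s, hs, h1, h2⟩ := h
        have hle := wcomb_le ha hs h1 h2
        have hnn := wcomb_nonneg S (fun s => Q s ^ P⁻¹) ha o y
        have e1 : ‖wcombS S (fun s => Q s ^ P⁻¹) o y‖ₑ ^ P ≤ ENNReal.ofReal (Q s) := by
          rw [wcombS_apply, ← ofReal_norm, Complex.norm_real, Real.norm_eq_abs, abs_of_nonneg hnn,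
            ENNReal.ofReal_rpow_of_nonneg hnn hP.le]
          apply ENNReal.ofReal_le_ofReal
          calc wcomb S (fun s => Q s ^ P⁻¹) o y ^ P ≤ (Q s ^ P⁻¹) ^ P :=
                Real.rpow_le_rpow hnn hle hP.le
            _ = Q s := by
                rw [← Real.rpow_mul (hQ s), inv_mul_cancel₀ hP.ne', Real.rpow_one]
        refine le_trans e1 ?_
        have hmem : y ∈ Set.Icc (8 * (s : ℝ) + o - 4) (8 * (s : ℝ) + o + 2) := by
          constructor <;> linarith
        have := single_le_sum (f := fun s : ℤ =>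
          (Set.Icc (8 * (s : ℝ) + o - 4) (8 * (s : ℝ) + o + 2)).indicator
          (fun _ => ENNReal.ofReal (Q s)) y) (fun _ _ => zero_le) hs
        rw [Set.indicator_of_mem hmem] at this
        exact this
    have hint : ∫⁻ y, ‖wcombS S (fun s => Q s ^ P⁻¹) o y‖ₑ ^ P ≤
        ENNReal.ofReal (6 * ∑ s ∈ S, Q s) := by
      calc ∫⁻ y, ‖wcombS S (fun s => Q s ^ P⁻¹) o y‖ₑ ^ P
          ≤ ∫⁻ y, ∑ s ∈ S, (Set.Icc (8 * (s : ℝ) + o - 4) (8 * (s : ℝ) + o + 2)).indicator
            (fun _ => ENNReal.ofReal (Q s)) y := lintegral_mono hpt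
        _ = ∑ s ∈ S, ∫⁻ y, (Set.Icc (8 * (s : ℝ) + o - 4) (8 * (s : ℝ) + o + 2)).indicator
            (fun _ => ENNReal.ofReal (Q s)) y := by
            rw [lintegral_finsetSum]
            intro s _
            exact measurable_const.indicator measurableSet_Icc
        _ = ∑ s ∈ S, ENNReal.ofReal (Q s) * 6 := by
            refine sum_congr rfl (fun s _ => ?_)
            rw [lintegral_indicator_const measurableSet_Icc, Real.volume_Icc]
            have : 8 * (s : ℝ) + o + 2 - (8 * (s : ℝ) + o - 4) = 6 := by ring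
            rw [this]
            norm_num
        _ = ENNReal.ofReal (6 * ∑ s ∈ S, Q s) := by
            rw [← sum_mul, ← ENNReal.ofReal_sum_of_nonneg (fun s _ => hQ s), mul_comm,
              ENNReal.ofReal_mul (by norm_num)]
            norm_num
    have hS0 : 0 ≤ 6 * ∑ s ∈ S, Q s := mul_nonneg (by norm_num) (sum_nonneg (fun s _ => hQ s))
    rw [← ENNReal.ofReal_rpow_of_nonneg hS0 (inv_nonneg.2 hP.le), one_div]
    exact ENNReal.rpow_le_rpow hint (inv_nonneg.2 hP.le)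

end Vale.Agent.P141
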