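import Mathlib
import Vale.Agent.P141.Comb

namespace Vale.Agent.P141

open Finset

/-- the weight of a pair `g = (x,t)`: `q₁(x-t)^u₁ q₂(x-2t)^u₂ q₃(x-3t)^u₃` -/
noncomputable def wgt (q₁ q₂ q₃ : ℤ → ℝ) (u₁ u₂ u₃ : ℝ) (g : ℤ × ℤ) : ℝ :=
  q₁ (g.1 - 1 * g.2) ^ u₁ * q₂ (g.1 - 2 * g.2) ^ u₂ * q₃ (g.1 - 3 * g.2) ^ u₃

/-- the discrete trilinear sum `A(x) = ∑_{t : (x,t) ∈ G} q₁(x-t)^u₁ q₂(x-2t)^u₂ q₃(x-3t)^u₃` -/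
noncomputable def Asum (G : Finset (ℤ × ℤ)) (q₁ q₂ q₃ : ℤ → ℝ) (u₁ u₂ u₃ : ℝ) (x : ℤ) : ℝ :=
  ∑ g ∈ G.filter (fun g => g.1 = x), wgt q₁ q₂ q₃ u₁ u₂ u₃ g

end Vale.Agent.P141
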