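import Mathlib
import Vale.Agent.P141.Defs
import Vale.Agent.P141.Bump
import Vale.Agent.P141.WBump

namespace Vale.Agent.P141

open MeasureTheory Filter Topology Finset
open scoped ENNReal NNReal SchwartzMap

/-- pointwise lower bound for `T` of three weighted combs on a good interval -/
theorem T_lower_w (S₁ S₂ S₃ : Finset ℤ) (a₁ a₂ a₃ : ℤ → ℝ) (ha₁ : ∀ s, 0 ≤ a₁ s)
    (ha₂ : ∀ s, 0 ≤ a₂ s) (ha₃ : ∀ s, 0 ≤ a₃ s)
    (M : ℝ) (hM : 0 ≤ M) (hS : ∀ s ∈ S₁, |(s : ℝ)| ≤ M)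
    (x₀ : ℤ) (τ : Finset ℤ) (hx₀ : |(x₀ : ℝ)| ≤ M) (h1 : ∀ t₀ ∈ τ, x₀ - t₀ ∈ S₁)
    (h2 : ∀ t₀ ∈ τ, x₀ - 2 * t₀ ∈ S₂)
    (h3 : ∀ t₀ ∈ τ, x₀ - 3 * t₀ ∈ S₃) (x : ℝ)
    (hx : x ∈ Set.Icc (8 * (x₀ : ℝ)) (8 * (x₀ : ℝ) + 1)) :
    (32 * M + 9)⁻¹ * ∑ t₀ ∈ τ, a₁ (x₀ - t₀) * a₂ (x₀ - 2 * t₀) * a₃ (x₀ - 3 * t₀) ≤
      ‖T (wcombS S₁ a₁ (-(16 * M + 4))) (wcombS S₂ a₂ (-(2 * (16 * M + 4))))
      (wcombS S₃ a₃ (-(3 * (16 * M + 4)))) x‖ := by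
  set θ : ℝ := 16 * M + 4 with hθ
  set R₀ : ℝ := 32 * M + 9 with hR₀
  obtain ⟨hx1, hx2⟩ := hx
  have hx₀' := abs_le.1 hx₀
  set Ψ : ℝ → ℝ := fun t => wcomb S₁ a₁ (-θ) (x - t) * wcomb S₂ a₂ (-(2 * θ)) (x - 2 * t) *
    wcomb S₃ a₃ (-(3 * θ)) (x - 3 * t) * (max t 1)⁻¹ with hΨ
  have hvan : ∀ t : ℝ, (t ≤ 1 ∨ R₀ ≤ t) → wcomb S₁ a₁ (-θ) (x - t) = 0 := by
    intro t ht
    apply wcomb_eq_zero
    intro s hs
    have hs' := abs_le.1 (hS s hs)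
    rcases ht with ht | ht
    · right
      linarith [hs'.1, hs'.2, hx₀'.1, hx₀'.2]
    · left
      linarith [hs'.1, hs'.2, hx₀'.1, hx₀'.2]
  have hint : ∀ t : ℝ, wcombS S₁ a₁ (-θ) (x - t) * wcombS S₂ a₂ (-(2 * θ)) (x - 2 * t) *
      wcombS S₃ a₃ (-(3 * θ)) (x - 3 * t) / (t : ℂ) = ((Ψ t : ℝ) : ℂ) := by
    intro t
    simp only [wcombS_apply, hΨ]
    by_cases ht : t ≤ 1
    · rw [hvan t (Or.inl ht)]
      simp
    · have : max t 1 = t := max_eq_left (le_of_lt (not_le.1 ht))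
      rw [this]
      push_cast
      rw [div_eq_mul_inv]
  have hΨ0 : ∀ t : ℝ, (t ≤ 1 ∨ R₀ ≤ t) → Ψ t = 0 := by
    intro t ht
    simp only [hΨ]
    rw [hvan t ht]
    ring
  have hΨnn : ∀ t : ℝ, 0 ≤ Ψ t := by
    intro t
    simp only [hΨ]
    have := wcomb_nonneg S₁ a₁ ha₁ (-θ) (x - t)
    have := wcomb_nonneg S₂ a₂ ha₂ (-(2 * θ)) (x - 2 * t)
    have := wcomb_nonneg S₃ a₃ ha₃ (-(3 * θ)) (x - 3 * t)
    have : 0 ≤ (max t 1)⁻¹ := inv_nonneg.2 (le_trans zero_le_one (le_max_right _ _))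
    positivity
  have hΨc : Continuous Ψ := by
    simp only [hΨ]
    have c1 : Continuous fun t : ℝ => wcomb S₁ a₁ (-θ) (x - t) :=
      (wcomb_continuous _ _ _).comp (continuous_const.sub continuous_id)
    have c2 : Continuous fun t : ℝ => wcomb S₂ a₂ (-(2 * θ)) (x - 2 * t) :=
      (wcomb_continuous _ _ _).comp (continuous_const.sub (continuous_const.mul continuous_id))
    have c3 : Continuous fun t : ℝ => wcomb S₃ a₃ (-(3 * θ)) (x - 3 * t) :=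
      (wcomb_continuous _ _ _).comp (continuous_const.sub (continuous_const.mul continuous_id))
    have c4 : Continuous fun t : ℝ => (max t 1)⁻¹ := by
      apply Continuous.inv₀ (continuous_id.max continuous_const)
      intro t
      have : (0 : ℝ) < max t 1 := lt_of_lt_of_le zero_lt_one (le_max_right _ _)
      exact this.ne'
    exact ((c1.mul c2).mul c3).mul c4
  have hΨcs : HasCompactSupport Ψ := by
    apply HasCompactSupport.intro (isCompact_Icc (a := (1 : ℝ)) (b := R₀))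
    intro t ht
    apply hΨ0
    rw [Set.mem_Icc, not_and_or] at ht
    rcases ht with ht | ht
    · exact Or.inl (le_of_lt (not_le.1 ht))
    · exact Or.inr (le_of_lt (not_le.1 ht))
  have hΨi : Integrable Ψ volume := hΨc.integrable_of_hasCompactSupport hΨcs
  have hR₀pos : 0 < R₀ := by rw [hR₀]; linarith
  -- the truncations are eventually constant
  have hev : ∀ᶠ q : ℝ × ℝ in (𝓝[>] (0 : ℝ)) ×ˢ (atTop : Filter ℝ),
      truncT (wcombS S₁ a₁ (-θ)) (wcombS S₂ a₂ (-(2 * θ))) (wcombS S₃ a₃ (-(3 * θ))) q.1 q.2 x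
        = (((∫ t, Ψ t) : ℝ) : ℂ) := by
    have e1 : ∀ᶠ ε in 𝓝[>] (0 : ℝ), ε < 1 :=
      mem_nhdsWithin_of_mem_nhds (Iio_mem_nhds one_pos)
    have e2 : ∀ᶠ R in (atTop : Filter ℝ), R₀ < R := eventually_gt_atTop R₀
    filter_upwards [e1.prod_mk e2] with q hq
    obtain ⟨hq1, hq2⟩ := hq
    unfold truncT
    rw [setIntegral_eq_integral_of_forall_compl_eq_zero]
    · simp_rw [hint]
      exact integral_ofReal
    · intro t ht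
      rw [hint, hΨ0, Complex.ofReal_zero]
      simp only [Set.mem_ofPred_eq, not_and_or, not_lt] at ht
      rcases ht with ht | ht
      · left
        exact le_trans (le_abs_self t) (le_trans ht hq1.le)
      · rcases le_total 0 t with h0 | h0
        · right
          rw [abs_of_nonneg h0] at ht
          linarith
        · left
          linarith
  have hT : T (wcombS S₁ a₁ (-θ)) (wcombS S₂ a₂ (-(2 * θ))) (wcombS S₃ a₃ (-(3 * θ))) x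
      = (((∫ t, Ψ t) : ℝ) : ℂ) := by
    unfold T
    apply Tendsto.limUnder_eq
    exact tendsto_const_nhds.congr' (hev.mono (fun _ h => h.symm))
  rw [hT, Complex.norm_real, Real.norm_eq_abs]
  refine le_trans ?_ (le_abs_self _)
  -- lower bound of the integral
  have hgood : ∀ t₀ ∈ τ, ∀ t ∈ Set.Icc (θ + 8 * (t₀ : ℝ)) (θ + 8 * (t₀ : ℝ) + 1),
      R₀⁻¹ * (a₁ (x₀ - t₀) * a₂ (x₀ - 2 * t₀) * a₃ (x₀ - 3 * t₀)) ≤ Ψ t := by
    intro t₀ ht₀ t ht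
    obtain ⟨ht1, ht2⟩ := ht
    have g1 : a₁ (x₀ - t₀) ≤ wcomb S₁ a₁ (-θ) (x - t) := by
      apply le_wcomb ha₁ (h1 t₀ ht₀) <;> push_cast <;> linarith
    have g2 : a₂ (x₀ - 2 * t₀) ≤ wcomb S₂ a₂ (-(2 * θ)) (x - 2 * t) := by
      apply le_wcomb ha₂ (h2 t₀ ht₀) <;> push_cast <;> linarith
    have g3 : a₃ (x₀ - 3 * t₀) ≤ wcomb S₃ a₃ (-(3 * θ)) (x - 3 * t) := by
      apply le_wcomb ha₃ (h3 t₀ ht₀) <;> push_cast <;> linarith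
    have hs' := abs_le.1 (hS _ (h1 t₀ ht₀))
    push_cast at hs'
    have htR : 1 < t ∧ t < R₀ := by
      constructor
      · linarith [hs'.1, hs'.2, hx₀'.1, hx₀'.2]
      · linarith [hs'.1, hs'.2, hx₀'.1, hx₀'.2]
    have hmax : max t 1 = t := max_eq_left htR.1.le
    have g4 : R₀⁻¹ ≤ (max t 1)⁻¹ := by
      rw [hmax]
      exact inv_anti₀ (by linarith) htR.2.le
    simp only [hΨ]
    have hR0 : 0 ≤ R₀⁻¹ := inv_nonneg.2 hR₀pos.le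
    have n1 := ha₁ (x₀ - t₀)
    have n2 := ha₂ (x₀ - 2 * t₀)
    have n3 := ha₃ (x₀ - 3 * t₀)
    have w1 := wcomb_nonneg S₁ a₁ ha₁ (-θ) (x - t)
    have w2 := wcomb_nonneg S₂ a₂ ha₂ (-(2 * θ)) (x - 2 * t)
    have w3 := wcomb_nonneg S₃ a₃ ha₃ (-(3 * θ)) (x - 3 * t)
    calc R₀⁻¹ * (a₁ (x₀ - t₀) * a₂ (x₀ - 2 * t₀) * a₃ (x₀ - 3 * t₀))
        = a₁ (x₀ - t₀) * a₂ (x₀ - 2 * t₀) * a₃ (x₀ - 3 * t₀) * R₀⁻¹ := by ring
      _ ≤ wcomb S₁ a₁ (-θ) (x - t) * wcomb S₂ a₂ (-(2 * θ)) (x - 2 * t) *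
          wcomb S₃ a₃ (-(3 * θ)) (x - 3 * t) * (max t 1)⁻¹ := by
        gcongr
  have hstep : ∀ t₀ ∈ τ, R₀⁻¹ * (a₁ (x₀ - t₀) * a₂ (x₀ - 2 * t₀) * a₃ (x₀ - 3 * t₀)) ≤
      ∫ t in Set.Icc (θ + 8 * (t₀ : ℝ)) (θ + 8 * (t₀ : ℝ) + 1), Ψ t := by
    intro t₀ ht₀
    have := setIntegral_ge_of_const_le_real (μ := volume) measurableSet_Icc (by simp)
      (hgood t₀ ht₀) hΨi.integrableOn
    have hvol : volume.real (Set.Icc (θ + 8 * (t₀ : ℝ)) (θ + 8 * (t₀ : ℝ) + 1)) = 1 := by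
      simp [Measure.real, Real.volume_Icc]
    rw [hvol, mul_one] at this
    exact this
  have hdisj : Set.PairwiseDisjoint (τ : Set ℤ)
      (fun t₀ : ℤ => Set.Icc (θ + 8 * (t₀ : ℝ)) (θ + 8 * (t₀ : ℝ) + 1)) := by
    intro u _ v _ huv
    rw [Function.onFun, Set.disjoint_left]
    intro y hy1 hy2
    rcases lt_or_gt_of_ne huv with hlt | hgt
    · have : (u : ℝ) + 1 ≤ v := by exact_mod_cast hlt
      linarith [hy1.1, hy1.2, hy2.1, hy2.2]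
    · have : (v : ℝ) + 1 ≤ u := by exact_mod_cast hgt
      linarith [hy1.1, hy1.2, hy2.1, hy2.2]
  have hunion : ∫ t in ⋃ t₀ ∈ τ, Set.Icc (θ + 8 * (t₀ : ℝ)) (θ + 8 * (t₀ : ℝ) + 1), Ψ t
      = ∑ t₀ ∈ τ, ∫ t in Set.Icc (θ + 8 * (t₀ : ℝ)) (θ + 8 * (t₀ : ℝ) + 1), Ψ t :=
    integral_biUnion_finset τ (fun _ _ => measurableSet_Icc) hdisj
      (fun _ _ => hΨi.integrableOn)
  rw [mul_sum]
  calc ∑ t₀ ∈ τ, R₀⁻¹ * (a₁ (x₀ - t₀) * a₂ (x₀ - 2 * t₀) * a₃ (x₀ - 3 * t₀))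
      ≤ ∑ t₀ ∈ τ, ∫ t in Set.Icc (θ + 8 * (t₀ : ℝ)) (θ + 8 * (t₀ : ℝ) + 1), Ψ t :=
        sum_le_sum hstep
    _ = ∫ t in ⋃ t₀ ∈ τ, Set.Icc (θ + 8 * (t₀ : ℝ)) (θ + 8 * (t₀ : ℝ) + 1), Ψ t := hunion.symm
    _ ≤ ∫ t, Ψ t := setIntegral_le_integral hΨi (Eventually.of_forall hΨnn)

end Vale.Agent.P141
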