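import Mathlib
import Vale.Agent.P141.Defs

namespace Vale.Agent.P141

open MeasureTheory Filter Topology Finset
open scoped ENNReal NNReal SchwartzMap

theorem Lr_lower_w {ι : Type*} (F : ℝ → ℂ) (I : Finset ι) (pos : ι → ℤ)
    (hpos : Set.InjOn pos (I : Set ι)) (c : ι → ℝ) (hc : ∀ σ, 0 ≤ c σ)
    (hF : ∀ σ ∈ I, ∀ x ∈ Set.Icc (8 * (pos σ : ℝ)) (8 * (pos σ : ℝ) + 1), c σ ≤ ‖F x‖)
    (r : ℝ≥0∞) (hr0 : 0 < r) (hr1 : r < ∞) :
    ENNReal.ofReal ((∑ σ ∈ I, c σ ^ r.toReal) ^ r.toReal⁻¹) ≤ eLpNorm F r volume := by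
  have hrpos : 0 < r.toReal := ENNReal.toReal_pos hr0.ne' hr1.ne
  have hdisj : Set.PairwiseDisjoint (I : Set ι)
      (fun σ : ι => Set.Icc (8 * (pos σ : ℝ)) (8 * (pos σ : ℝ) + 1)) := by
    intro u hu v hv huv
    have hne : pos u ≠ pos v := fun h => huv (hpos hu hv h)
    rw [Function.onFun, Set.disjoint_left]
    intro y hy1 hy2
    rcases lt_or_gt_of_ne hne with hlt | hgt
    · have : (pos u : ℝ) + 1 ≤ pos v := by exact_mod_cast hlt
      linarith [hy1.1, hy1.2, hy2.1, hy2.2]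
    · have : (pos v : ℝ) + 1 ≤ pos u := by exact_mod_cast hgt
      linarith [hy1.1, hy1.2, hy2.1, hy2.2]
  rw [eLpNorm_eq_lintegral_rpow_enorm_toReal hr0.ne' hr1.ne]
  have h1 : ENNReal.ofReal (∑ σ ∈ I, c σ ^ r.toReal) ≤ ∫⁻ x, ‖F x‖ₑ ^ r.toReal := by
    calc ENNReal.ofReal (∑ σ ∈ I, c σ ^ r.toReal)
        = ∑ σ ∈ I, ENNReal.ofReal (c σ ^ r.toReal) :=
          ENNReal.ofReal_sum_of_nonneg (fun σ _ => Real.rpow_nonneg (hc σ) _)
      _ ≤ ∑ σ ∈ I, ∫⁻ x in Set.Icc (8 * (pos σ : ℝ)) (8 * (pos σ : ℝ) + 1),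
            ‖F x‖ₑ ^ r.toReal := by
          refine sum_le_sum (fun σ hσ => ?_)
          have hv : volume (Set.Icc (8 * (pos σ : ℝ)) (8 * (pos σ : ℝ) + 1)) = 1 := by
            rw [Real.volume_Icc]
            simp
          calc ENNReal.ofReal (c σ ^ r.toReal)
              = ∫⁻ _ in Set.Icc (8 * (pos σ : ℝ)) (8 * (pos σ : ℝ) + 1),
                  ENNReal.ofReal (c σ ^ r.toReal) := by
                rw [setLIntegral_const, hv, mul_one]
            _ ≤ ∫⁻ x in Set.Icc (8 * (pos σ : ℝ)) (8 * (pos σ : ℝ) + 1),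
                  ‖F x‖ₑ ^ r.toReal := by
                refine setLIntegral_mono' measurableSet_Icc (fun x hx => ?_)
                rw [← ENNReal.ofReal_rpow_of_nonneg (hc σ) hrpos.le]
                apply ENNReal.rpow_le_rpow _ hrpos.le
                rw [← ofReal_norm]
                exact ENNReal.ofReal_le_ofReal (hF σ hσ x hx)
      _ = ∫⁻ x in ⋃ σ ∈ I, Set.Icc (8 * (pos σ : ℝ)) (8 * (pos σ : ℝ) + 1),
            ‖F x‖ₑ ^ r.toReal :=
          (lintegral_biUnion_finset hdisj (fun _ _ => measurableSet_Icc) _).symm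
      _ ≤ ∫⁻ x, ‖F x‖ₑ ^ r.toReal := setLIntegral_le_lintegral _ _
  have h2 := ENNReal.rpow_le_rpow h1 (by positivity : 0 ≤ 1 / r.toReal)
  refine le_trans (le_of_eq ?_) h2
  rw [ENNReal.ofReal_rpow_of_nonneg (sum_nonneg (fun σ _ => Real.rpow_nonneg (hc σ) _))
    (by positivity), one_div]

end Vale.Agent.P141
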