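import Mathlib
import Vale.Agent.P141.Defs
import Vale.Agent.P141.Comb
import Vale.Agent.P141.Digits
import Vale.Agent.P141.WBump
import Vale.Agent.P141.WLower
import Vale.Agent.P141.WNorms
import Vale.Agent.P141.WDefs
import Vale.Agent.P141.Main

namespace Vale.Agent.P141

open MeasureTheory Filter Topology Finset
open scoped ENNReal NNReal SchwartzMap

/-- the set of `t` with `(x,t) ∈ G` -/
def fib (G : Finset (ℤ × ℤ)) (x : ℤ) : Finset ℤ := (G.filter (fun g => g.1 = x)).image Prod.snd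

theorem mem_fib {G : Finset (ℤ × ℤ)} {x t : ℤ} : t ∈ fib G x ↔ (x, t) ∈ G := by
  simp only [fib, mem_image, mem_filter]
  constructor
  · rintro ⟨g, ⟨hg, rfl⟩, rfl⟩
    exact hg
  · intro h
    exact ⟨(x, t), ⟨h, rfl⟩, rfl⟩

theorem Asum_eq (G : Finset (ℤ × ℤ)) (q₁ q₂ q₃ : ℤ → ℝ) (u₁ u₂ u₃ : ℝ) (x : ℤ) :
    Asum G q₁ q₂ q₃ u₁ u₂ u₃ x = ∑ t ∈ fib G x, wgt q₁ q₂ q₃ u₁ u₂ u₃ (x, t) := by
  unfold Asum fib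
  rw [sum_image]
  · refine sum_congr rfl (fun g hg => ?_)
    rw [mem_filter] at hg
    obtain ⟨_, rfl⟩ := hg
    rfl
  · intro g hg h hh e
    simp only [coe_filter, Set.mem_ofPred_eq] at hg hh
    exact Prod.ext (hg.2.trans hh.2.symm) e

theorem wgt_nonneg (q₁ q₂ q₃ : ℤ → ℝ) (hq₁ : ∀ s, 0 ≤ q₁ s) (hq₂ : ∀ s, 0 ≤ q₂ s)
    (hq₃ : ∀ s, 0 ≤ q₃ s) (u₁ u₂ u₃ : ℝ) (g : ℤ × ℤ) : 0 ≤ wgt q₁ q₂ q₃ u₁ u₂ u₃ g := by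
  unfold wgt
  have := Real.rpow_nonneg (hq₁ (g.1 - 1 * g.2)) u₁
  have := Real.rpow_nonneg (hq₂ (g.1 - 2 * g.2)) u₂
  have := Real.rpow_nonneg (hq₃ (g.1 - 3 * g.2)) u₃
  positivity

theorem Asum_nonneg (G : Finset (ℤ × ℤ)) (q₁ q₂ q₃ : ℤ → ℝ) (hq₁ : ∀ s, 0 ≤ q₁ s)
    (hq₂ : ∀ s, 0 ≤ q₂ s) (hq₃ : ∀ s, 0 ≤ q₃ s) (u₁ u₂ u₃ : ℝ) (x : ℤ) :
    0 ≤ Asum G q₁ q₂ q₃ u₁ u₂ u₃ x :=
  sum_nonneg (fun _ _ => wgt_nonneg q₁ q₂ q₃ hq₁ hq₂ hq₃ u₁ u₂ u₃ _)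

theorem rpow_prod_le_Qn (S : Finset ℤ) (q : ℤ → ℝ) (hq : ∀ s, 0 ≤ q s) (b n : ℕ) (u : ℝ)
    (hu : 0 ≤ u) (σ : Fin n → ℤ) (hσ : ∀ k, σ k ∈ S) :
    ∏ k, q (σ k) ^ u ≤ Qn S q b n (val b σ) ^ u := by
  rw [Real.finsetProd_rpow _ _ (fun k _ => hq _)]
  exact Real.rpow_le_rpow (prod_nonneg (fun _ _ => hq _)) (le_Qn S q hq b n σ hσ) hu

theorem level_lower (G : Finset (ℤ × ℤ)) (b : ℕ) (hb : 2 ≤ b)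
    (ht : ∀ g ∈ G, ∀ h ∈ G, (b : ℤ) ∣ g.2 - h.2 → g.2 = h.2)
    (q₁ q₂ q₃ : ℤ → ℝ) (hq₁ : ∀ s, 0 ≤ q₁ s) (hq₂ : ∀ s, 0 ≤ q₂ s) (hq₃ : ∀ s, 0 ≤ q₃ s)
    (u₁ u₂ u₃ : ℝ) (hu₁ : 0 ≤ u₁) (hu₂ : 0 ≤ u₂) (hu₃ : 0 ≤ u₃) (n : ℕ) (ξ : Fin n → ℤ) :
    ∏ k, Asum G q₁ q₂ q₃ u₁ u₂ u₃ (ξ k) ≤
      ∑ t₀ ∈ (Fintype.piFinset (fun k => fib G (ξ k))).image (val b),
        Qn (proj 1 G) q₁ b n (val b ξ - t₀) ^ u₁ * Qn (proj 2 G) q₂ b n (val b ξ - 2 * t₀) ^ u₂ *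
          Qn (proj 3 G) q₃ b n (val b ξ - 3 * t₀) ^ u₃ := by
  rw [sum_image]
  · simp_rw [Asum_eq]
    rw [Finset.prod_univ_sum]
    refine sum_le_sum (fun τ hτ => ?_)
    rw [Fintype.mem_piFinset] at hτ
    have hG : ∀ k, (ξ k, τ k) ∈ G := fun k => mem_fib.1 (hτ k)
    have e1 : val b ξ - val b τ = val b (fun k => ξ k - 1 * τ k) := by
      rw [val_lin]; ring
    have e2 : val b ξ - 2 * val b τ = val b (fun k => ξ k - 2 * τ k) := by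
      rw [val_lin]
    have e3 : val b ξ - 3 * val b τ = val b (fun k => ξ k - 3 * τ k) := by
      rw [val_lin]
    rw [e1, e2, e3]
    have m1 : ∀ k, ξ k - 1 * τ k ∈ proj 1 G := fun k =>
      mem_image.2 ⟨(ξ k, τ k), hG k, rfl⟩
    have m2 : ∀ k, ξ k - 2 * τ k ∈ proj 2 G := fun k =>
      mem_image.2 ⟨(ξ k, τ k), hG k, rfl⟩
    have m3 : ∀ k, ξ k - 3 * τ k ∈ proj 3 G := fun k =>
      mem_image.2 ⟨(ξ k, τ k), hG k, rfl⟩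
    have l1 := rpow_prod_le_Qn (proj 1 G) q₁ hq₁ b n u₁ hu₁ _ m1
    have l2 := rpow_prod_le_Qn (proj 2 G) q₂ hq₂ b n u₂ hu₂ _ m2
    have l3 := rpow_prod_le_Qn (proj 3 G) q₃ hq₃ b n u₃ hu₃ _ m3
    have z1 : 0 ≤ ∏ k, q₁ (ξ k - 1 * τ k) ^ u₁ :=
      prod_nonneg (fun _ _ => Real.rpow_nonneg (hq₁ _) _)
    have z2 : 0 ≤ ∏ k, q₂ (ξ k - 2 * τ k) ^ u₂ :=
      prod_nonneg (fun _ _ => Real.rpow_nonneg (hq₂ _) _)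
    have z3 : 0 ≤ ∏ k, q₃ (ξ k - 3 * τ k) ^ u₃ :=
      prod_nonneg (fun _ _ => Real.rpow_nonneg (hq₃ _) _)
    calc ∏ k, wgt q₁ q₂ q₃ u₁ u₂ u₃ (ξ k, τ k)
        = (∏ k, q₁ (ξ k - 1 * τ k) ^ u₁) * (∏ k, q₂ (ξ k - 2 * τ k) ^ u₂) *
          (∏ k, q₃ (ξ k - 3 * τ k) ^ u₃) := by
          simp only [wgt, prod_mul_distrib]
      _ ≤ _ := mul_le_mul (mul_le_mul l1 l2 z2 (le_trans z1 l1)) l3 z3
          (mul_nonneg (le_trans z1 l1) (le_trans z2 l2))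
  · intro τ hτ τ' hτ' e
    simp only [Fintype.coe_piFinset, Set.mem_pi, Set.mem_univ, forall_true_left,
      mem_coe] at hτ hτ'
    apply val_inj b hb τ τ' _ e
    intro k hk
    exact ht _ (mem_fib.1 (hτ k)) _ (mem_fib.1 (hτ' k)) hk

end Vale.Agent.P141
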