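import Mathlib
import Vale.Agent.P141.Defs
import Vale.Agent.P141.Comb
import Vale.Agent.P141.Digits
import Vale.Agent.P141.WBump
import Vale.Agent.P141.WLower
import Vale.Agent.P141.WNorms
import Vale.Agent.P141.WDefs
import Vale.Agent.P141.Main
import Vale.Agent.P141.WMain

namespace Vale.Agent.P141

open MeasureTheory Filter Topology Finset
open scoped ENNReal NNReal SchwartzMap

theorem val_real_bound (b : ℕ) (hb : 2 ≤ b) {n : ℕ} (σ : Fin n → ℤ) (B : ℤ) (hB0 : 0 ≤ B)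
    (h : ∀ k, |σ k| ≤ B) : |((val b σ : ℤ) : ℝ)| ≤ 2 * (B : ℝ) * (b : ℝ) ^ n := by
  have h1 := val_bound b hb σ B h
  have e1 : ((|val b σ| : ℤ) : ℝ) ≤ ((B * ((b : ℤ) ^ n - 1) : ℤ) : ℝ) := by exact_mod_cast h1
  push_cast at e1
  have hB0' : (0 : ℝ) ≤ (B : ℝ) := by exact_mod_cast hB0
  have hbn : (0 : ℝ) ≤ (b : ℝ) ^ n := by positivity
  nlinarith [mul_nonneg hB0' hbn]

theorem sum_c_pow (X : Finset ℤ) (A : ℤ → ℝ) (hA : ∀ x, 0 ≤ A x) (κ ρ : ℝ) (hκ : 0 ≤ κ) (n : ℕ) :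
    ∑ ξ ∈ Fintype.piFinset (fun _ : Fin n => X), (κ * ∏ k, A (ξ k)) ^ ρ
      = κ ^ ρ * (∑ x ∈ X, A x ^ ρ) ^ n := by
  have h1 : ∀ ξ : Fin n → ℤ, (κ * ∏ k, A (ξ k)) ^ ρ = κ ^ ρ * ∏ k, A (ξ k) ^ ρ := by
    intro ξ
    rw [Real.mul_rpow hκ (prod_nonneg (fun _ _ => hA _)),
      Real.finsetProd_rpow _ _ (fun k _ => hA _)]
  simp_rw [h1]
  rw [← mul_sum]
  have := Finset.prod_univ_sum (fun _ : Fin n => X) (fun _ x => A x ^ ρ)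
  rw [← this]
  simp

/-- the inequality forced at level `n` by boundedness with constant `C` -/
theorem level_ineq_w (G : Finset (ℤ × ℤ)) (b : ℕ) (hb : 2 ≤ b)
    (hx : ∀ g ∈ G, ∀ h ∈ G, (b : ℤ) ∣ g.1 - h.1 → g.1 = h.1)
    (ht : ∀ g ∈ G, ∀ h ∈ G, (b : ℤ) ∣ g.2 - h.2 → g.2 = h.2)
    (q₁ q₂ q₃ : ℤ → ℝ) (hq₁ : ∀ s, 0 ≤ q₁ s) (hq₂ : ∀ s, 0 ≤ q₂ s) (hq₃ : ∀ s, 0 ≤ q₃ s)
    (p₁ p₂ p₃ r : ℝ≥0∞) (hp₁ : p₁ ≠ 0) (hp₂ : p₂ ≠ 0) (hp₃ : p₃ ≠ 0)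
    (hr0 : 0 < r) (hr1 : r < ∞) (C : ℝ≥0)
    (hC : ∀ f₁ f₂ f₃ : 𝓢(ℝ, ℂ), eLpNorm (T f₁ f₂ f₃) r volume ≤
      C * eLpNorm f₁ p₁ volume * eLpNorm f₂ p₂ volume * eLpNorm f₃ p₃ volume)
    (B : ℤ) (hB0 : 0 ≤ B) (hB : ∀ g ∈ G, |g.1| ≤ B ∧ |g.1 - 1 * g.2| ≤ B) (n : ℕ) :
    (32 * (2 * (B : ℝ) * (b : ℝ) ^ n) + 9)⁻¹ *
      ((∑ x ∈ G.image Prod.fst,
        Asum G q₁ q₂ q₃ p₁.toReal⁻¹ p₂.toReal⁻¹ p₃.toReal⁻¹ x ^ r.toReal) ^ n) ^ r.toReal⁻¹ ≤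
      (C : ℝ) * (6 * (∑ y ∈ proj 1 G, q₁ y) ^ n) ^ p₁.toReal⁻¹ *
        (6 * (∑ y ∈ proj 2 G, q₂ y) ^ n) ^ p₂.toReal⁻¹ *
        (6 * (∑ y ∈ proj 3 G, q₃ y) ^ n) ^ p₃.toReal⁻¹ := by
  set u₁ := p₁.toReal⁻¹ with hu₁
  set u₂ := p₂.toReal⁻¹ with hu₂
  set u₃ := p₃.toReal⁻¹ with hu₃
  have hu₁0 : 0 ≤ u₁ := inv_nonneg.2 ENNReal.toReal_nonneg
  have hu₂0 : 0 ≤ u₂ := inv_nonneg.2 ENNReal.toReal_nonneg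
  have hu₃0 : 0 ≤ u₃ := inv_nonneg.2 ENNReal.toReal_nonneg
  have hρ : 0 < r.toReal := ENNReal.toReal_pos hr0.ne' hr1.ne
  set ρ := r.toReal with hρdef
  set M : ℝ := 2 * (B : ℝ) * (b : ℝ) ^ n with hM
  have hBR : (0 : ℝ) ≤ (B : ℝ) := by exact_mod_cast hB0
  have hM0 : 0 ≤ M := by positivity
  set X := G.image Prod.fst with hX
  set A : ℤ → ℝ := Asum G q₁ q₂ q₃ u₁ u₂ u₃ with hA
  have hA0 : ∀ x, 0 ≤ A x := fun x => Asum_nonneg G q₁ q₂ q₃ hq₁ hq₂ hq₃ u₁ u₂ u₃ x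
  set a₁ : ℤ → ℝ := fun y => Qn (proj 1 G) q₁ b n y ^ u₁ with ha₁
  set a₂ : ℤ → ℝ := fun y => Qn (proj 2 G) q₂ b n y ^ u₂ with ha₂
  set a₃ : ℤ → ℝ := fun y => Qn (proj 3 G) q₃ b n y ^ u₃ with ha₃
  have ha₁0 : ∀ s, 0 ≤ a₁ s := fun s => Real.rpow_nonneg (Qn_nonneg _ _ hq₁ _ _ _) _
  have ha₂0 : ∀ s, 0 ≤ a₂ s := fun s => Real.rpow_nonneg (Qn_nonneg _ _ hq₂ _ _ _) _
  have ha₃0 : ∀ s, 0 ≤ a₃ s := fun s => Real.rpow_nonneg (Qn_nonneg _ _ hq₃ _ _ _) _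
  set f₁ := wcombS (Sn (proj 1 G) b n) a₁ (-(16 * M + 4)) with hf₁
  set f₂ := wcombS (Sn (proj 2 G) b n) a₂ (-(2 * (16 * M + 4))) with hf₂
  set f₃ := wcombS (Sn (proj 3 G) b n) a₃ (-(3 * (16 * M + 4))) with hf₃
  set I := Fintype.piFinset (fun _ : Fin n => X) with hI
  have hS : ∀ s ∈ Sn (proj 1 G) b n, |(s : ℝ)| ≤ M := by
    intro s hs
    simp only [Sn, mem_image, Fintype.mem_piFinset] at hs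
    obtain ⟨σ, hσ, rfl⟩ := hs
    apply val_real_bound b hb σ B hB0
    intro k
    have := hσ k
    simp only [proj, mem_image] at this
    obtain ⟨g, hg, e⟩ := this
    rw [← e]
    exact (hB g hg).2
  have hinj : Set.InjOn (val b (n := n)) (I : Set (Fin n → ℤ)) := by
    intro ξ hξ ξ' hξ' e
    simp only [hI, Fintype.coe_piFinset, Set.mem_pi, Set.mem_univ, forall_true_left,
      mem_coe] at hξ hξ'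
    apply val_inj b hb ξ ξ' _ e
    intro k hk
    have h1 := hξ k
    have h2 := hξ' k
    simp only [hX, mem_image] at h1 h2
    obtain ⟨g, hg, e1⟩ := h1
    obtain ⟨g', hg', e2⟩ := h2
    rw [← e1, ← e2] at hk ⊢
    exact hx g hg g' hg' hk
  have hlow : ∀ ξ ∈ I, ∀ x ∈ Set.Icc (8 * ((val b ξ : ℤ) : ℝ)) (8 * ((val b ξ : ℤ) : ℝ) + 1),
      (32 * M + 9)⁻¹ * ∏ k, A (ξ k) ≤ ‖T f₁ f₂ f₃ x‖ := by
    intro ξ hξ x hxx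
    rw [hI, Fintype.mem_piFinset] at hξ
    have hx₀ : |((val b ξ : ℤ) : ℝ)| ≤ M := by
      apply val_real_bound b hb ξ B hB0
      intro k
      have h1 := hξ k
      simp only [hX, mem_image] at h1
      obtain ⟨g, hg, e1⟩ := h1
      rw [← e1]
      exact (hB g hg).1
    have key := T_lower_w (Sn (proj 1 G) b n) (Sn (proj 2 G) b n) (Sn (proj 3 G) b n) a₁ a₂ a₃
      ha₁0 ha₂0 ha₃0 M hM0 hS (val b ξ)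
      ((Fintype.piFinset (fun k => fib G (ξ k))).image (val b)) hx₀ ?_ ?_ ?_ x hxx
    · refine le_trans ?_ key
      apply mul_le_mul_of_nonneg_left _ (by positivity)
      exact level_lower G b hb ht q₁ q₂ q₃ hq₁ hq₂ hq₃ u₁ u₂ u₃ hu₁0 hu₂0 hu₃0 n ξ
    · intro t₀ ht₀
      simp only [mem_image, Fintype.mem_piFinset] at ht₀
      obtain ⟨τ, hτ, rfl⟩ := ht₀
      have e1 : val b ξ - val b τ = val b (fun k => ξ k - 1 * τ k) := by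
        rw [val_lin]; ring
      rw [e1]
      exact mem_Sn _ _ _ _ (fun k => mem_image.2 ⟨(ξ k, τ k), mem_fib.1 (hτ k), rfl⟩)
    · intro t₀ ht₀
      simp only [mem_image, Fintype.mem_piFinset] at ht₀
      obtain ⟨τ, hτ, rfl⟩ := ht₀
      rw [← val_lin]
      exact mem_Sn _ _ _ _ (fun k => mem_image.2 ⟨(ξ k, τ k), mem_fib.1 (hτ k), rfl⟩)
    · intro t₀ ht₀
      simp only [mem_image, Fintype.mem_piFinset] at ht₀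
      obtain ⟨τ, hτ, rfl⟩ := ht₀
      rw [← val_lin]
      exact mem_Sn _ _ _ _ (fun k => mem_image.2 ⟨(ξ k, τ k), mem_fib.1 (hτ k), rfl⟩)
  have hκ : 0 ≤ (32 * M + 9)⁻¹ := by positivity
  have hL := Lr_lower_w (T f₁ f₂ f₃) I (val b) hinj (fun ξ => (32 * M + 9)⁻¹ * ∏ k, A (ξ k))
    (fun ξ => mul_nonneg hκ (prod_nonneg (fun _ _ => hA0 _))) hlow r hr0 hr1
  rw [← hρdef, hI, sum_c_pow X A hA0 _ ρ hκ n] at hL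
  have hN0 : 0 ≤ (∑ x ∈ X, A x ^ ρ) ^ n :=
    pow_nonneg (sum_nonneg (fun x _ => Real.rpow_nonneg (hA0 x) _)) n
  rw [Real.mul_rpow (Real.rpow_nonneg hκ _) hN0, ← Real.rpow_mul hκ, mul_inv_cancel₀ hρ.ne',
    Real.rpow_one] at hL
  have hU := hC f₁ f₂ f₃
  have n1 := wcombS_eLpNorm_le (Sn (proj 1 G) b n) (Qn (proj 1 G) q₁ b n)
    (Qn_nonneg _ _ hq₁ _ _) (-(16 * M + 4)) p₁ hp₁
  have n2 := wcombS_eLpNorm_le (Sn (proj 2 G) b n) (Qn (proj 2 G) q₂ b n)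
    (Qn_nonneg _ _ hq₂ _ _) (-(2 * (16 * M + 4))) p₂ hp₂
  have n3 := wcombS_eLpNorm_le (Sn (proj 3 G) b n) (Qn (proj 3 G) q₃ b n)
    (Qn_nonneg _ _ hq₃ _ _) (-(3 * (16 * M + 4))) p₃ hp₃
  rw [Qn_mass] at n1 n2 n3
  have s1 : 0 ≤ ∑ y ∈ proj 1 G, q₁ y := sum_nonneg (fun y _ => hq₁ y)
  have s2 : 0 ≤ ∑ y ∈ proj 2 G, q₂ y := sum_nonneg (fun y _ => hq₂ y)
  have s3 : 0 ≤ ∑ y ∈ proj 3 G, q₃ y := sum_nonneg (fun y _ => hq₃ y)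
  have hchain : ENNReal.ofReal ((32 * M + 9)⁻¹ * ((∑ x ∈ X, A x ^ ρ) ^ n) ^ ρ⁻¹) ≤
      ENNReal.ofReal ((C : ℝ) * (6 * (∑ y ∈ proj 1 G, q₁ y) ^ n) ^ u₁ *
        (6 * (∑ y ∈ proj 2 G, q₂ y) ^ n) ^ u₂ *
        (6 * (∑ y ∈ proj 3 G, q₃ y) ^ n) ^ u₃) := by
    refine le_trans hL (le_trans hU ?_)
    rw [ENNReal.ofReal_mul (by positivity), ENNReal.ofReal_mul (by positivity),
      ENNReal.ofReal_mul (by positivity), ENNReal.ofReal_coe_nnreal]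
    gcongr
  exact (ENNReal.ofReal_le_ofReal_iff (by positivity)).1 hchain

/-- Weighted criterion.  `G` is a finite set of integer pairs `(x,t)` such that distinct first
coordinates are incongruent mod `b` and distinct second coordinates are incongruent mod `b`;
`q₁,q₂,q₃ ≥ 0` are arbitrary masses on `ℤ`.  If
`b * ∏ᵢ (∑_{y ∈ {x - i t}} qᵢ y)^(1/pᵢ) < (∑ₓ A(x)^r)^(1/r)` with
`A(x) = ∑_{t : (x,t) ∈ G} ∏ᵢ qᵢ(x - i t)^(1/pᵢ)` then `T` is unbounded at `(p₁,p₂,p₃,r)`. -/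
theorem unbounded_of_weights (G : Finset (ℤ × ℤ)) (b : ℕ) (hb : 2 ≤ b)
    (hx : ∀ g ∈ G, ∀ h ∈ G, (b : ℤ) ∣ g.1 - h.1 → g.1 = h.1)
    (ht : ∀ g ∈ G, ∀ h ∈ G, (b : ℤ) ∣ g.2 - h.2 → g.2 = h.2)
    (q₁ q₂ q₃ : ℤ → ℝ) (hq₁ : ∀ s, 0 ≤ q₁ s) (hq₂ : ∀ s, 0 ≤ q₂ s) (hq₃ : ∀ s, 0 ≤ q₃ s)
    (p₁ p₂ p₃ r : ℝ≥0∞) (hp₁ : p₁ ≠ 0) (hp₂ : p₂ ≠ 0) (hp₃ : p₃ ≠ 0)
    (hr0 : 0 < r) (hr1 : r < ∞)
    (hcond : (b : ℝ) * ((∑ y ∈ proj 1 G, q₁ y) ^ p₁.toReal⁻¹ * (∑ y ∈ proj 2 G, q₂ y) ^ p₂.toReal⁻¹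
      * (∑ y ∈ proj 3 G, q₃ y) ^ p₃.toReal⁻¹) <
      (∑ x ∈ G.image Prod.fst,
        Asum G q₁ q₂ q₃ p₁.toReal⁻¹ p₂.toReal⁻¹ p₃.toReal⁻¹ x ^ r.toReal) ^ r.toReal⁻¹) :
    ¬ BoundedAt p₁ p₂ p₃ r := by
  rintro ⟨C, hC⟩
  set B : ℤ := ∑ g ∈ G, (|g.1| + |g.1 - 1 * g.2|) with hBdef
  have hB : ∀ g ∈ G, |g.1| ≤ B ∧ |g.1 - 1 * g.2| ≤ B := by
    intro g hg
    have h1 : |g.1| + |g.1 - 1 * g.2| ≤ B :=
      single_le_sum (f := fun g : ℤ × ℤ => |g.1| + |g.1 - 1 * g.2|)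
        (fun g _ => add_nonneg (abs_nonneg _) (abs_nonneg _)) hg
    constructor
    · linarith [abs_nonneg (g.1 - 1 * g.2)]
    · linarith [abs_nonneg g.1]
  have hB0 : 0 ≤ B := sum_nonneg (fun g _ => add_nonneg (abs_nonneg _) (abs_nonneg _))
  have hbR : (1 : ℝ) ≤ b := by
    have : 1 ≤ b := by omega
    exact_mod_cast this
  have hBR : (0 : ℝ) ≤ (B : ℝ) := by exact_mod_cast hB0
  have s1 : 0 ≤ ∑ y ∈ proj 1 G, q₁ y := sum_nonneg (fun y _ => hq₁ y)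
  have s2 : 0 ≤ ∑ y ∈ proj 2 G, q₂ y := sum_nonneg (fun y _ => hq₂ y)
  have s3 : 0 ≤ ∑ y ∈ proj 3 G, q₃ y := sum_nonneg (fun y _ => hq₃ y)
  have sN : 0 ≤ ∑ x ∈ G.image Prod.fst,
      Asum G q₁ q₂ q₃ p₁.toReal⁻¹ p₂.toReal⁻¹ p₃.toReal⁻¹ x ^ r.toReal :=
    sum_nonneg (fun x _ => Real.rpow_nonneg (Asum_nonneg G q₁ q₂ q₃ hq₁ hq₂ hq₃ _ _ _ x) _)
  refine no_bound _ _ ((C : ℝ) * ((6 : ℝ) ^ p₁.toReal⁻¹ * (6 : ℝ) ^ p₂.toReal⁻¹ *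
    (6 : ℝ) ^ p₃.toReal⁻¹) * (64 * (B : ℝ) + 9)) (by positivity) hcond (fun n => ?_)
  exact algebra_step _ _ _ _ _ _ _ _ (C : ℝ) (B : ℝ) (b : ℝ) n sN s1 s2 s3 C.coe_nonneg hBR hbR
    (level_ineq_w G b hb hx ht q₁ q₂ q₃ hq₁ hq₂ hq₃ p₁ p₂ p₃ r hp₁ hp₂ hp₃ hr0 hr1 C hC B hB0 hB n)

end Vale.Agent.P141
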