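import Mathlib
import Vale.Agent.P141.Defs
import Vale.Agent.P141.Comb
import Vale.Agent.P141.WDefs
import Vale.Agent.P141.EDefs
import Vale.Agent.P141.Gibbs
import Vale.Agent.P141.Holder
import Vale.Agent.P141.WCrit

namespace Vale.Agent.P141

open Finset
open scoped ENNReal NNReal

variable (G : Finset (ℤ × ℤ)) (ν : ℤ × ℤ → ℕ)

theorem push_cast_eq (i y : ℤ) :
    ((push G ν i y : ℕ) : ℝ) = ∑ g ∈ G.filter (fun g => g.1 - i * g.2 = y), (ν g : ℝ) := by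
  unfold push
  push_cast
  rfl

theorem push_mass (i : ℤ) : ∑ y ∈ proj i G, ((push G ν i y : ℕ) : ℝ) = ∑ g ∈ G, (ν g : ℝ) := by
  simp_rw [push_cast_eq]
  exact sum_fiberwise_of_maps_to (fun g hg => mem_image_of_mem _ hg) _

theorem push_pos (hν : ∀ g ∈ G, 0 < ν g) (i : ℤ) (g : ℤ × ℤ) (hg : g ∈ G) :
    0 < push G ν i (g.1 - i * g.2) := by
  unfold push
  apply sum_pos'
  · intro _ _
    exact Nat.zero_le _
  · exact ⟨g, mem_filter.2 ⟨hg, rfl⟩, hν g hg⟩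

theorem sum_log_push (i : ℤ) :
    ∑ g ∈ G, (ν g : ℝ) * Real.log (push G ν i (g.1 - i * g.2)) = elog (proj i G) (push G ν i) := by
  unfold elog
  rw [← sum_fiberwise_of_maps_to (s := G) (t := proj i G) (g := fun g => g.1 - i * g.2)
    (fun g hg => mem_image_of_mem _ hg)]
  refine sum_congr rfl (fun y _ => ?_)
  rw [push_cast_eq, sum_mul]
  refine sum_congr rfl (fun g hg => ?_)
  rw [mem_filter] at hg
  rw [hg.2, push_cast_eq]

theorem proj_zero : proj 0 G = G.image Prod.fst := by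
  unfold proj
  congr 1
  funext g
  simp

theorem push_zero_cast (x : ℤ) :
    ((push G ν 0 x : ℕ) : ℝ) = ∑ g ∈ G.filter (fun g => g.1 = x), (ν g : ℝ) := by
  rw [push_cast_eq]
  congr 1
  apply filter_congr
  intro g _
  simp

theorem log_wgt (hν : ∀ g ∈ G, 0 < ν g) (u₁ u₂ u₃ : ℝ) (g : ℤ × ℤ) (hg : g ∈ G) :
    0 < wgt (fun y => (push G ν 1 y : ℝ)) (fun y => (push G ν 2 y : ℝ))
      (fun y => (push G ν 3 y : ℝ)) u₁ u₂ u₃ g ∧
    Real.log (wgt (fun y => (push G ν 1 y : ℝ)) (fun y => (push G ν 2 y : ℝ))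
      (fun y => (push G ν 3 y : ℝ)) u₁ u₂ u₃ g) =
      u₁ * Real.log (push G ν 1 (g.1 - 1 * g.2)) + u₂ * Real.log (push G ν 2 (g.1 - 2 * g.2)) +
        u₃ * Real.log (push G ν 3 (g.1 - 3 * g.2)) := by
  have p1 : (0 : ℝ) < (push G ν 1 (g.1 - 1 * g.2) : ℝ) := by exact_mod_cast push_pos G ν hν 1 g hg
  have p2 : (0 : ℝ) < (push G ν 2 (g.1 - 2 * g.2) : ℝ) := by exact_mod_cast push_pos G ν hν 2 g hg
  have p3 : (0 : ℝ) < (push G ν 3 (g.1 - 3 * g.2) : ℝ) := by exact_mod_cast push_pos G ν hν 3 g hg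
  have r1 := Real.rpow_pos_of_pos p1 u₁
  have r2 := Real.rpow_pos_of_pos p2 u₂
  have r3 := Real.rpow_pos_of_pos p3 u₃
  unfold wgt
  constructor
  · positivity
  · rw [Real.log_mul (mul_pos r1 r2).ne' r3.ne', Real.log_mul r1.ne' r2.ne',
      Real.log_rpow p1, Real.log_rpow p2, Real.log_rpow p3]

/-- lower bound for the logarithm of the discrete `ℓ^ρ` sum, by two applications of Gibbs -/
theorem key_lower (hν : ∀ g ∈ G, 0 < ν g) (hG : G.Nonempty) (u₁ u₂ u₃ ρ : ℝ) (hρ : 0 < ρ) :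
    0 < ∑ x ∈ G.image Prod.fst, Asum G (fun y => (push G ν 1 y : ℝ))
        (fun y => (push G ν 2 y : ℝ)) (fun y => (push G ν 3 y : ℝ)) u₁ u₂ u₃ x ^ ρ ∧
    ρ * (u₁ * elog (proj 1 G) (push G ν 1) + u₂ * elog (proj 2 G) (push G ν 2) +
        u₃ * elog (proj 3 G) (push G ν 3)) - ρ * (∑ g ∈ G, (ν g : ℝ) * Real.log (ν g))
      - (1 - ρ) * elog (proj 0 G) (push G ν 0)
      + (∑ g ∈ G, (ν g : ℝ)) * Real.log (∑ g ∈ G, (ν g : ℝ)) ≤
    (∑ g ∈ G, (ν g : ℝ)) * Real.log (∑ x ∈ G.image Prod.fst,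
      Asum G (fun y => (push G ν 1 y : ℝ)) (fun y => (push G ν 2 y : ℝ))
        (fun y => (push G ν 3 y : ℝ)) u₁ u₂ u₃ x ^ ρ) := by
  set q₁ : ℤ → ℝ := fun y => (push G ν 1 y : ℝ) with hq₁
  set q₂ : ℤ → ℝ := fun y => (push G ν 2 y : ℝ) with hq₂
  set q₃ : ℤ → ℝ := fun y => (push G ν 3 y : ℝ) with hq₃
  set X := G.image Prod.fst with hX
  set A : ℤ → ℝ := Asum G q₁ q₂ q₃ u₁ u₂ u₃ with hA
  set N : ℤ → ℝ := fun x => ∑ g ∈ G.filter (fun g => g.1 = x), (ν g : ℝ) with hN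
  have hνR : ∀ g ∈ G, (0 : ℝ) < (ν g : ℝ) := fun g hg => by exact_mod_cast hν g hg
  have hne : ∀ x ∈ X, (G.filter (fun g => g.1 = x)).Nonempty := by
    intro x hx
    simp only [hX, mem_image] at hx
    obtain ⟨g, hg, e⟩ := hx
    exact ⟨g, mem_filter.2 ⟨hg, e⟩⟩
  have hNpos : ∀ x ∈ X, 0 < N x := fun x hx =>
    sum_pos (fun g hg => hνR g (mem_filter.1 hg).1) (hne x hx)
  have hApos : ∀ x ∈ X, 0 < A x := fun x hx =>
    sum_pos (fun g hg => (log_wgt G ν hν u₁ u₂ u₃ g (mem_filter.1 hg).1).1) (hne x hx)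
  have hXne : X.Nonempty := hG.image _
  have hND : ∑ x ∈ X, N x = ∑ g ∈ G, (ν g : ℝ) :=
    sum_fiberwise_of_maps_to (fun g hg => mem_image_of_mem _ hg) _
  have inner : ∀ x ∈ X, ∑ g ∈ G.filter (fun g => g.1 = x), (ν g : ℝ) *
      (Real.log (wgt q₁ q₂ q₃ u₁ u₂ u₃ g) - Real.log (ν g)) + N x * Real.log (N x)
      ≤ N x * Real.log (A x) := fun x hx =>
    gibbs (G.filter (fun g => g.1 = x)) (fun g => (ν g : ℝ)) (wgt q₁ q₂ q₃ u₁ u₂ u₃)
      (fun g hg => hνR g (mem_filter.1 hg).1)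
      (fun g hg => (log_wgt G ν hν u₁ u₂ u₃ g (mem_filter.1 hg).1).1) (hne x hx)
  have outer := gibbs X N (fun x => A x ^ ρ) hNpos
    (fun x hx => Real.rpow_pos_of_pos (hApos x hx) ρ) hXne
  rw [hND] at outer
  refine ⟨sum_pos (fun x hx => Real.rpow_pos_of_pos (hApos x hx) ρ) hXne, le_trans ?_ outer⟩
  have hEX : elog (proj 0 G) (push G ν 0) = ∑ x ∈ X, N x * Real.log (N x) := by
    unfold elog
    rw [proj_zero]
    refine sum_congr rfl (fun x _ => ?_)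
    rw [push_zero_cast]
  have hsum : ∑ x ∈ X, ∑ g ∈ G.filter (fun g => g.1 = x), (ν g : ℝ) *
      (Real.log (wgt q₁ q₂ q₃ u₁ u₂ u₃ g) - Real.log (ν g)) =
      (u₁ * elog (proj 1 G) (push G ν 1) + u₂ * elog (proj 2 G) (push G ν 2) +
        u₃ * elog (proj 3 G) (push G ν 3)) - ∑ g ∈ G, (ν g : ℝ) * Real.log (ν g) := by
    rw [sum_fiberwise_of_maps_to (fun g hg => mem_image_of_mem _ hg),
      ← sum_log_push G ν 1, ← sum_log_push G ν 2, ← sum_log_push G ν 3, mul_sum, mul_sum, mul_sum,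
      ← sum_add_distrib, ← sum_add_distrib, ← sum_sub_distrib]
    refine sum_congr rfl (fun g hg => ?_)
    rw [(log_wgt G ν hν u₁ u₂ u₃ g hg).2]
    ring
  have step : ∑ x ∈ X, (ρ * (∑ g ∈ G.filter (fun g => g.1 = x), (ν g : ℝ) *
      (Real.log (wgt q₁ q₂ q₃ u₁ u₂ u₃ g) - Real.log (ν g)) + N x * Real.log (N x))
      - N x * Real.log (N x)) ≤ ∑ x ∈ X, N x * (Real.log (A x ^ ρ) - Real.log (N x)) := by
    refine sum_le_sum (fun x hx => ?_)
    rw [Real.log_rpow (hApos x hx)]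
    have := mul_le_mul_of_nonneg_left (inner x hx) hρ.le
    linarith
  have expand : ∑ x ∈ X, (ρ * (∑ g ∈ G.filter (fun g => g.1 = x), (ν g : ℝ) *
      (Real.log (wgt q₁ q₂ q₃ u₁ u₂ u₃ g) - Real.log (ν g)) + N x * Real.log (N x))
      - N x * Real.log (N x)) =
      ρ * (∑ x ∈ X, ∑ g ∈ G.filter (fun g => g.1 = x), (ν g : ℝ) *
      (Real.log (wgt q₁ q₂ q₃ u₁ u₂ u₃ g) - Real.log (ν g))) -
      (1 - ρ) * ∑ x ∈ X, N x * Real.log (N x) := by
    rw [mul_sum, mul_sum, ← sum_sub_distrib]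
    refine sum_congr rfl (fun x _ => ?_)
    ring
  rw [expand, hsum, ← hEX] at step
  linarith

end Vale.Agent.P141
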