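import Mathlib
import Vale.Agent.P141.Defs
import Vale.Agent.P141.Comb
import Vale.Agent.P141.WDefs
import Vale.Agent.P141.EDefs
import Vale.Agent.P141.Holder
import Vale.Agent.P141.WCrit
import Vale.Agent.P141.Entropy

namespace Vale.Agent.P141

open Finset
open scoped ENNReal NNReal

theorem convex_comb_gt (θ₁ θ₂ θ₃ E₁ E₂ E₃ Λ : ℝ) (h1 : 0 ≤ θ₁) (h2 : 0 ≤ θ₂) (h3 : 0 ≤ θ₃)
    (hs : θ₁ + θ₂ + θ₃ = 1) (e1 : Λ < E₁) (e2 : Λ < E₂) (e3 : Λ < E₃) :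
    Λ < θ₁ * E₁ + θ₂ * E₂ + θ₃ * E₃ := by
  set δ := min (E₁ - Λ) (min (E₂ - Λ) (E₃ - Λ)) with hδ
  have hδpos : 0 < δ := by
    rw [hδ]
    exact lt_min (by linarith) (lt_min (by linarith) (by linarith))
  have d1 : δ ≤ E₁ - Λ := min_le_left _ _
  have d2 : δ ≤ E₂ - Λ := le_trans (min_le_right _ _) (min_le_left _ _)
  have d3 : δ ≤ E₃ - Λ := le_trans (min_le_right _ _) (min_le_right _ _)
  have m1 := mul_le_mul_of_nonneg_left d1 h1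
  have m2 := mul_le_mul_of_nonneg_left d2 h2
  have m3 := mul_le_mul_of_nonneg_left d3 h3
  have : (θ₁ + θ₂ + θ₃) * δ + (θ₁ + θ₂ + θ₃) * Λ ≤ θ₁ * E₁ + θ₂ * E₂ + θ₃ * E₃ := by
    nlinarith
  rw [hs] at this
  linarith

/-- Entropy criterion.  `ν` is a positive integer mass on `G`.  With `D = ∑ ν`,
`E_G = ∑ ν log ν`, `E_i = ∑ f log f` for the push-forward `f` of `ν` under `x - i t`
(`i = 0,1,2,3`): if `E_0 + r (D log b + E_G - E_0) < E_i` for `i = 1,2,3`, then `T` is unbounded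
at every Holder tuple with this `r`. -/
theorem unbounded_of_measure (G : Finset (ℤ × ℤ)) (b : ℕ) (hb : 2 ≤ b)
    (hx : ∀ g ∈ G, ∀ h ∈ G, (b : ℤ) ∣ g.1 - h.1 → g.1 = h.1)
    (ht : ∀ g ∈ G, ∀ h ∈ G, (b : ℤ) ∣ g.2 - h.2 → g.2 = h.2)
    (ν : ℤ × ℤ → ℕ) (hν : ∀ g ∈ G, 0 < ν g) (hG : G.Nonempty)
    (p₁ p₂ p₃ r : ℝ≥0∞) (hH : IsHolderTuple p₁ p₂ p₃ r)
    (hE : ∀ i ∈ ({1, 2, 3} : Finset ℤ), elog (proj 0 G) (push G ν 0) + r.toReal *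
      ((∑ g ∈ G, (ν g : ℝ)) * Real.log b + (∑ g ∈ G, (ν g : ℝ) * Real.log (ν g))
        - elog (proj 0 G) (push G ν 0)) < elog (proj i G) (push G ν i)) :
    ¬ BoundedAt p₁ p₂ p₃ r := by
  have hrel := holder_real hH
  obtain ⟨hp1, hp2, hp3, hr0, hr1, _⟩ := hH
  have hρ : 0 < r.toReal := ENNReal.toReal_pos hr0.ne' hr1.ne
  set ρ := r.toReal with hρdef
  set u₁ := p₁.toReal⁻¹ with hu₁
  set u₂ := p₂.toReal⁻¹ with hu₂
  set u₃ := p₃.toReal⁻¹ with hu₃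
  have hu₁0 : 0 ≤ u₁ := inv_nonneg.2 ENNReal.toReal_nonneg
  have hu₂0 : 0 ≤ u₂ := inv_nonneg.2 ENNReal.toReal_nonneg
  have hu₃0 : 0 ≤ u₃ := inv_nonneg.2 ENNReal.toReal_nonneg
  set D : ℝ := ∑ g ∈ G, (ν g : ℝ) with hD
  have hDpos : 0 < D := sum_pos (fun g hg => by exact_mod_cast hν g hg) hG
  have hbpos : (0 : ℝ) < b := by
    have : 0 < b := by omega
    exact_mod_cast this
  apply unbounded_of_weights G b hb hx ht (fun y => (push G ν 1 y : ℝ))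
    (fun y => (push G ν 2 y : ℝ)) (fun y => (push G ν 3 y : ℝ))
    (fun _ => Nat.cast_nonneg _) (fun _ => Nat.cast_nonneg _) (fun _ => Nat.cast_nonneg _)
    p₁ p₂ p₃ r (ne_of_gt (lt_trans zero_lt_one hp1)) (ne_of_gt (lt_trans zero_lt_one hp2))
    (ne_of_gt (lt_trans zero_lt_one hp3)) hr0 hr1
  rw [push_mass, push_mass, push_mass, ← hD, ← hu₁, ← hu₂, ← hu₃, ← hρdef]
  obtain ⟨hSpos, hkey⟩ := key_lower G ν hν hG u₁ u₂ u₃ ρ hρ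
  set S := ∑ x ∈ G.image Prod.fst, Asum G (fun y => (push G ν 1 y : ℝ))
    (fun y => (push G ν 2 y : ℝ)) (fun y => (push G ν 3 y : ℝ)) u₁ u₂ u₃ x ^ ρ with hS
  rw [← hD] at hkey
  have hθ : ρ * u₁ + ρ * u₂ + ρ * u₃ = 1 := by
    rw [← mul_add, ← mul_add, ← hrel, mul_inv_cancel₀ hρ.ne']
  have hconv := convex_comb_gt (ρ * u₁) (ρ * u₂) (ρ * u₃) _ _ _ _ (mul_nonneg hρ.le hu₁0)
    (mul_nonneg hρ.le hu₂0) (mul_nonneg hρ.le hu₃0) hθ (hE 1 (by simp)) (hE 2 (by simp))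
    (hE 3 (by simp))
  have hlog : ρ * Real.log b + Real.log D < Real.log S := by
    have : D * (ρ * Real.log b + Real.log D) < D * Real.log S := by
      nlinarith
    exact lt_of_mul_lt_mul_left this hDpos.le
  have hlt : (b : ℝ) ^ ρ * D < S := by
    rw [← Real.log_lt_log_iff (mul_pos (Real.rpow_pos_of_pos hbpos ρ) hDpos) hSpos,
      Real.log_mul (Real.rpow_pos_of_pos hbpos ρ).ne' hDpos.ne', Real.log_rpow hbpos]
    exact hlog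
  have e1 : (b : ℝ) * (D ^ u₁ * D ^ u₂ * D ^ u₃) = ((b : ℝ) ^ ρ * D) ^ ρ⁻¹ := by
    rw [Real.mul_rpow (Real.rpow_pos_of_pos hbpos ρ).le hDpos.le, ← Real.rpow_mul hbpos.le,
      mul_inv_cancel₀ hρ.ne', Real.rpow_one, hrel, Real.rpow_add hDpos, Real.rpow_add hDpos]
  rw [e1]
  exact Real.rpow_lt_rpow (mul_pos (Real.rpow_pos_of_pos hbpos ρ) hDpos).le hlt
    (inv_pos.2 hρ)

end Vale.Agent.P141
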