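import Mathlib
import Vale.Agent.P141.Defs
import Vale.Agent.P141.Comb
import Vale.Agent.P141.EDefs
import Vale.Agent.P141.Entropy
import Vale.Agent.P141.EMain

namespace Vale.Agent.P141

open Finset
open scoped ENNReal NNReal

theorem log_prod_pow {ι : Type*} (S : Finset ι) (f : ι → ℕ) (k : ℕ) (hf : ∀ y ∈ S, 0 < f y) :
    Real.log ((∏ y ∈ S, f y ^ (k * f y) : ℕ) : ℝ) =
      k * ∑ y ∈ S, (f y : ℝ) * Real.log (f y) := by
  push_cast
  rw [Real.log_prod, mul_sum]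
  · refine sum_congr rfl (fun y _ => ?_)
    rw [Real.log_pow]
    push_cast
    ring
  · intro y hy
    have : (0 : ℝ) < (f y : ℝ) := by exact_mod_cast hf y hy
    positivity

theorem prod_pow_pos {ι : Type*} (S : Finset ι) (f : ι → ℕ) (k : ℕ) (hf : ∀ y ∈ S, 0 < f y) :
    0 < ∏ y ∈ S, f y ^ (k * f y) :=
  prod_pos (fun y hy => pow_pos (hf y hy) _)

theorem push_pos' (G : Finset (ℤ × ℤ)) (ν : ℤ × ℤ → ℕ) (hν : ∀ g ∈ G, 0 < ν g) (i : ℤ) :
    ∀ y ∈ proj i G, 0 < push G ν i y := by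
  intro y hy
  simp only [proj, mem_image] at hy
  obtain ⟨g, hg, rfl⟩ := hy
  exact push_pos G ν hν i g hg

/-- Slab criterion in terms of inequalities between natural numbers. -/
theorem slab_of_nat (G : Finset (ℤ × ℤ)) (b : ℕ) (hb : 2 ≤ b)
    (hx : ∀ g ∈ G, ∀ h ∈ G, (b : ℤ) ∣ g.1 - h.1 → g.1 = h.1)
    (ht : ∀ g ∈ G, ∀ h ∈ G, (b : ℤ) ∣ g.2 - h.2 → g.2 = h.2)
    (ν : ℤ × ℤ → ℕ) (hν : ∀ g ∈ G, 0 < ν g) (hG : G.Nonempty) (P R : ℕ)
    (hc : ∏ x ∈ proj 0 G, push G ν 0 x ^ (1 * push G ν 0 x) ≤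
      b ^ (∑ g ∈ G, ν g) * ∏ g ∈ G, ν g ^ (1 * ν g))
    (hn : ∀ i ∈ ({1, 2, 3} : Finset ℤ),
      (∏ x ∈ proj 0 G, push G ν 0 x ^ (R * push G ν 0 x)) * b ^ (P * ∑ g ∈ G, ν g) *
        (∏ g ∈ G, ν g ^ (P * ν g)) < ∏ y ∈ proj i G, push G ν i y ^ ((P + R) * push G ν i y))
    (p₁ p₂ p₃ r : ℝ≥0∞) (hH : IsHolderTuple p₁ p₂ p₃ r)
    (hr : r.toReal * ((P : ℝ) + R) ≤ P) :
    ¬ BoundedAt p₁ p₂ p₃ r := by
  apply unbounded_of_measure G b hb hx ht ν hν hG p₁ p₂ p₃ r hH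
  have hbpos : (0 : ℝ) < b := by
    have : 0 < b := by omega
    exact_mod_cast this
  have hb0 : 0 < b := by omega
  set EX := elog (proj 0 G) (push G ν 0) with hEX
  set EG := ∑ g ∈ G, (ν g : ℝ) * Real.log (ν g) with hEG
  set D : ℝ := ∑ g ∈ G, (ν g : ℝ) with hD
  have hDc : ((∑ g ∈ G, ν g : ℕ) : ℝ) = D := by push_cast; rfl
  have hρ0 : 0 ≤ r.toReal := ENNReal.toReal_nonneg
  -- c ≥ 0
  have hcR : EX ≤ D * Real.log b + EG := by
    have h1 : ((∏ x ∈ proj 0 G, push G ν 0 x ^ (1 * push G ν 0 x) : ℕ) : ℝ) ≤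
        ((b ^ (∑ g ∈ G, ν g) * ∏ g ∈ G, ν g ^ (1 * ν g) : ℕ) : ℝ) := by exact_mod_cast hc
    have h0 : (0 : ℝ) < ((∏ x ∈ proj 0 G, push G ν 0 x ^ (1 * push G ν 0 x) : ℕ) : ℝ) := by
      exact_mod_cast prod_pow_pos _ _ 1 (push_pos' G ν hν 0)
    have h2 := Real.log_le_log h0 h1
    rw [log_prod_pow _ _ 1 (push_pos' G ν hν 0), Nat.cast_mul, Real.log_mul
      (by positivity) (by exact_mod_cast (prod_pow_pos G ν 1 hν).ne'),
      log_prod_pow G ν 1 hν, Nat.cast_pow, Real.log_pow, hDc] at h2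
    simp only [Nat.cast_one, one_mul] at h2
    exact h2
  intro i hi
  have hni := hn i hi
  have h1 : (((∏ x ∈ proj 0 G, push G ν 0 x ^ (R * push G ν 0 x)) * b ^ (P * ∑ g ∈ G, ν g) *
        (∏ g ∈ G, ν g ^ (P * ν g)) : ℕ) : ℝ) <
      ((∏ y ∈ proj i G, push G ν i y ^ ((P + R) * push G ν i y) : ℕ) : ℝ) := by
    exact_mod_cast hni
  have hA : (0 : ℝ) < ((∏ x ∈ proj 0 G, push G ν 0 x ^ (R * push G ν 0 x) : ℕ) : ℝ) := by
    exact_mod_cast prod_pow_pos _ _ R (push_pos' G ν hν 0)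
  have hBp : (0 : ℝ) < ((b ^ (P * ∑ g ∈ G, ν g) : ℕ) : ℝ) := by
    exact_mod_cast pow_pos hb0 _
  have hCp : (0 : ℝ) < ((∏ g ∈ G, ν g ^ (P * ν g) : ℕ) : ℝ) := by
    exact_mod_cast prod_pow_pos G ν P hν
  rw [Nat.cast_mul, Nat.cast_mul] at h1
  have h2 := Real.log_lt_log (mul_pos (mul_pos hA hBp) hCp) h1
  rw [Real.log_mul (mul_pos hA hBp).ne' hCp.ne', Real.log_mul hA.ne' hBp.ne',
    log_prod_pow _ _ R (push_pos' G ν hν 0), log_prod_pow G ν P hν,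
    log_prod_pow _ _ (P + R) (push_pos' G ν hν i), Nat.cast_pow, Real.log_pow, Nat.cast_mul,
    hDc] at h2
  have h3 : (R : ℝ) * EX + (P : ℝ) * D * Real.log b + (P : ℝ) * EG <
      ((P : ℝ) + R) * elog (proj i G) (push G ν i) := by
    have := h2
    push_cast at this
    exact this
  -- conclude
  have hPR : 0 ≤ (P : ℝ) + R := by positivity
  have hc0 : 0 ≤ D * Real.log b + EG - EX := by linarith
  have hPRpos : 0 < (P : ℝ) + R := by
    rcases eq_or_lt_of_le hPR with h | h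
    · exfalso
      have hP0 : (P : ℝ) = 0 := by
        have : (0 : ℝ) ≤ (P : ℝ) := Nat.cast_nonneg _
        have : (0 : ℝ) ≤ (R : ℝ) := Nat.cast_nonneg _
        linarith
      have hR0 : (R : ℝ) = 0 := by linarith
      rw [hP0, hR0] at h3
      simp at h3
    · exact h
  have h4 : ((P : ℝ) + R) * (EX + r.toReal * (D * Real.log b + EG - EX)) ≤
      (R : ℝ) * EX + (P : ℝ) * D * Real.log b + (P : ℝ) * EG := by
    have := mul_le_mul_of_nonneg_right hr hc0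
    nlinarith
  exact lt_of_mul_lt_mul_left (lt_of_le_of_lt h4 h3) hPR

end Vale.Agent.P141
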