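import Mathlib
import Vale.Agent.P141.Defs
import Vale.Agent.P141.Comb
import Vale.Agent.P141.WDefs
import Vale.Agent.P141.EDefs
import Vale.Agent.P141.Holder
import Vale.Agent.P141.WCrit
import Vale.Agent.P141.Entropy
import Vale.Agent.P141.ESlab

namespace Vale.Agent.P141

open Finset
open scoped ENNReal NNReal

/-- Entropy criterion, half-space form.  `ν` is a positive integer mass on `G`.  With `D = ∑ ν`,
`E_G = ∑ ν log ν`, `E_i = ∑ f log f` for the push-forward `f` of `ν` under `x - i t`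
(`i = 0,1,2,3`): `T` is unbounded at every Holder tuple with
`E_G + (1/r - 1) E_0 + D log b < E_1 / p₁ + E_2 / p₂ + E_3 / p₃`. -/
theorem unbounded_of_measure_lin (G : Finset (ℤ × ℤ)) (b : ℕ) (hb : 2 ≤ b)
    (hx : ∀ g ∈ G, ∀ h ∈ G, (b : ℤ) ∣ g.1 - h.1 → g.1 = h.1)
    (ht : ∀ g ∈ G, ∀ h ∈ G, (b : ℤ) ∣ g.2 - h.2 → g.2 = h.2)
    (ν : ℤ × ℤ → ℕ) (hν : ∀ g ∈ G, 0 < ν g) (hG : G.Nonempty)
    (p₁ p₂ p₃ r : ℝ≥0∞) (hH : IsHolderTuple p₁ p₂ p₃ r)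
    (hE : (∑ g ∈ G, (ν g : ℝ) * Real.log (ν g)) + (r.toReal⁻¹ - 1) * elog (proj 0 G) (push G ν 0)
        + (∑ g ∈ G, (ν g : ℝ)) * Real.log b <
      p₁.toReal⁻¹ * elog (proj 1 G) (push G ν 1) + p₂.toReal⁻¹ * elog (proj 2 G) (push G ν 2)
        + p₃.toReal⁻¹ * elog (proj 3 G) (push G ν 3)) :
    ¬ BoundedAt p₁ p₂ p₃ r := by
  have hrel := holder_real hH
  obtain ⟨hp1, hp2, hp3, hr0, hr1, _⟩ := hH
  have hρ : 0 < r.toReal := ENNReal.toReal_pos hr0.ne' hr1.ne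
  set ρ := r.toReal with hρdef
  set u₁ := p₁.toReal⁻¹ with hu₁
  set u₂ := p₂.toReal⁻¹ with hu₂
  set u₃ := p₃.toReal⁻¹ with hu₃
  set D : ℝ := ∑ g ∈ G, (ν g : ℝ) with hD
  have hDpos : 0 < D := sum_pos (fun g hg => by exact_mod_cast hν g hg) hG
  have hbpos : (0 : ℝ) < b := by
    have : 0 < b := by omega
    exact_mod_cast this
  apply unbounded_of_weights G b hb hx ht (fun y => (push G ν 1 y : ℝ))
    (fun y => (push G ν 2 y : ℝ)) (fun y => (push G ν 3 y : ℝ))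
    (fun _ => Nat.cast_nonneg _) (fun _ => Nat.cast_nonneg _) (fun _ => Nat.cast_nonneg _)
    p₁ p₂ p₃ r (ne_of_gt (lt_trans zero_lt_one hp1)) (ne_of_gt (lt_trans zero_lt_one hp2))
    (ne_of_gt (lt_trans zero_lt_one hp3)) hr0 hr1
  rw [push_mass, push_mass, push_mass, ← hD, ← hu₁, ← hu₂, ← hu₃, ← hρdef]
  obtain ⟨hSpos, hkey⟩ := key_lower G ν hν hG u₁ u₂ u₃ ρ hρ
  set S := ∑ x ∈ G.image Prod.fst, Asum G (fun y => (push G ν 1 y : ℝ))
    (fun y => (push G ν 2 y : ℝ)) (fun y => (push G ν 3 y : ℝ)) u₁ u₂ u₃ x ^ ρ with hS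
  rw [← hD] at hkey
  have hE' := mul_lt_mul_of_pos_left hE hρ
  have hρi : ρ * ρ⁻¹ = 1 := mul_inv_cancel₀ hρ.ne'
  have hlog : ρ * Real.log b + Real.log D < Real.log S := by
    have : D * (ρ * Real.log b + Real.log D) < D * Real.log S := by
      have e : ρ * ((ρ⁻¹ - 1) * elog (proj 0 G) (push G ν 0))
          = (1 - ρ) * elog (proj 0 G) (push G ν 0) := by
        rw [← mul_assoc, mul_sub, hρi, mul_one]
      nlinarith
    exact lt_of_mul_lt_mul_left this hDpos.le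
  have hlt : (b : ℝ) ^ ρ * D < S := by
    rw [← Real.log_lt_log_iff (mul_pos (Real.rpow_pos_of_pos hbpos ρ) hDpos) hSpos,
      Real.log_mul (Real.rpow_pos_of_pos hbpos ρ).ne' hDpos.ne', Real.log_rpow hbpos]
    exact hlog
  have e1 : (b : ℝ) * (D ^ u₁ * D ^ u₂ * D ^ u₃) = ((b : ℝ) ^ ρ * D) ^ ρ⁻¹ := by
    rw [Real.mul_rpow (Real.rpow_pos_of_pos hbpos ρ).le hDpos.le, ← Real.rpow_mul hbpos.le,
      mul_inv_cancel₀ hρ.ne', Real.rpow_one, hrel, Real.rpow_add hDpos, Real.rpow_add hDpos]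
  rw [e1]
  exact Real.rpow_lt_rpow (mul_pos (Real.rpow_pos_of_pos hbpos ρ) hDpos).le hlt
    (inv_pos.2 hρ)

/-- `elog` as the logarithm of a natural number -/
theorem elog_eq_log (G : Finset (ℤ × ℤ)) (ν : ℤ × ℤ → ℕ) (hν : ∀ g ∈ G, 0 < ν g) (i : ℤ) (N : ℕ)
    (hN : ∏ y ∈ proj i G, push G ν i y ^ (1 * push G ν i y) = N) :
    elog (proj i G) (push G ν i) = Real.log N := by
  rw [← hN, log_prod_pow _ _ 1 (push_pos' G ν hν i)]
  simp [elog]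

end Vale.Agent.P141
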