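import Mathlib
import Vale.Agent.P141.Defs
import Vale.Agent.P141.Comb
import Vale.Agent.P141.EDefs
import Vale.Agent.P141.Holder
import Vale.Agent.P141.ELin

namespace Vale.Agent.P141

open Finset
open scoped ENNReal NNReal

/-- the constant mass one -/
def one1 (_ : ℤ × ℤ) : ℕ := 1

/-- `4 × 4` grid: `x = 4 i + j`, `t = 2 i + j` -/
def G16 : Finset (ℤ × ℤ) :=
  {(0, 0), (1, 1), (2, 2), (3, 3), (4, 2), (5, 3), (6, 4), (7, 5), (8, 4), (9, 5), (10, 6),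
   (11, 7), (12, 6), (13, 7), (14, 8), (15, 9)}

/-- `3 × 3` grid: `x = 3 i - j`, `t = i - j` -/
def G9 : Finset (ℤ × ℤ) :=
  {(0, 0), (-1, -1), (-2, -2), (3, 1), (2, 0), (1, -1), (6, 2), (5, 1), (4, 0)}

/-- `4 × 3` grid: `x = 3 i + 4 j`, `t = i + 2 j` -/
def G12 : Finset (ℤ × ℤ) :=
  {(0, 0), (3, 1), (6, 2), (9, 3), (4, 2), (7, 3), (10, 4), (13, 5), (8, 4), (11, 5), (14, 6),
   (17, 7)}

theorem sum_one_log (G : Finset (ℤ × ℤ)) :
    ∑ g ∈ G, ((one1 g : ℕ) : ℝ) * Real.log ((one1 g : ℕ) : ℝ) = 0 := by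
  simp [one1]

theorem log_ineq_of_pow (a c : ℕ) (m n : ℕ) (ha : 0 < a) (h : a ^ m ≤ c ^ n) :
    (m : ℝ) * Real.log a ≤ (n : ℝ) * Real.log c := by
  have h1 : ((a ^ m : ℕ) : ℝ) ≤ ((c ^ n : ℕ) : ℝ) := by exact_mod_cast h
  have h0 : (0 : ℝ) < ((a ^ m : ℕ) : ℝ) := by exact_mod_cast pow_pos ha m
  have := Real.log_le_log h0 h1
  rwa [Nat.cast_pow, Nat.cast_pow, Real.log_pow, Real.log_pow] at this

theorem corner3 (p₁ p₂ p₃ r : ℝ≥0∞) (hH : IsHolderTuple p₁ p₂ p₃ r)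
    (h : 2 < p₁.toReal⁻¹ + p₂.toReal⁻¹ + 2 / 3 * p₃.toReal⁻¹) : ¬ BoundedAt p₁ p₂ p₃ r := by
  have hν : ∀ g ∈ G16, 0 < one1 g := fun _ _ => Nat.one_pos
  apply unbounded_of_measure_lin G16 16 (by norm_num) (by decide +kernel) (by decide +kernel)
    one1 hν ⟨(0, 0), by decide +kernel⟩ p₁ p₂ p₃ r hH
  rw [sum_one_log, elog_eq_log G16 one1 hν 0 1 (by decide +kernel),
    elog_eq_log G16 one1 hν 1 (2 ^ 32) (by decide +kernel),
    elog_eq_log G16 one1 hν 2 (2 ^ 32) (by decide +kernel),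
    elog_eq_log G16 one1 hν 3 (2 ^ 12 * 3 ^ 6) (by decide +kernel)]
  have hD : ∑ g ∈ G16, ((one1 g : ℕ) : ℝ) = 16 := by
    simp only [one1, Nat.cast_one, sum_const, nsmul_eq_mul, mul_one]
    have : G16.card = 16 := by decide +kernel
    rw [this]
    norm_num
  rw [hD]
  have h3 := inv_toReal_nonneg p₃
  have l2 : 0 < Real.log 2 := Real.log_pos (by norm_num)
  have e16 : Real.log ((16 : ℕ) : ℝ) = 4 * Real.log 2 := by
    have : ((16 : ℕ) : ℝ) = (2 : ℝ) ^ 4 := by norm_num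
    rw [this, Real.log_pow]
    norm_num
  have e32 : Real.log ((2 ^ 32 : ℕ) : ℝ) = 32 * Real.log 2 := by
    rw [Nat.cast_pow, Real.log_pow]
    norm_num
  have e3 : Real.log ((2 ^ 12 * 3 ^ 6 : ℕ) : ℝ) = 12 * Real.log 2 + 6 * Real.log 3 := by
    rw [Nat.cast_mul, Nat.cast_pow, Nat.cast_pow, Real.log_mul (by positivity) (by positivity),
      Real.log_pow, Real.log_pow]
    norm_num
  have k := log_ineq_of_pow 2 3 28 18 (by norm_num) (by norm_num)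
  push_cast at k
  rw [e16, e32, e3]
  simp only [Nat.cast_one, Real.log_one, mul_zero, add_zero, zero_add]
  nlinarith [mul_nonneg h3 l2.le, mul_pos l2 (sub_pos.2 h)]

theorem corner2 (p₁ p₂ p₃ r : ℝ≥0∞) (hH : IsHolderTuple p₁ p₂ p₃ r)
    (h : 2 < p₁.toReal⁻¹ + 3 / 5 * p₂.toReal⁻¹ + p₃.toReal⁻¹) : ¬ BoundedAt p₁ p₂ p₃ r := by
  have hν : ∀ g ∈ G9, 0 < one1 g := fun _ _ => Nat.one_pos
  apply unbounded_of_measure_lin G9 9 (by norm_num) (by decide +kernel) (by decide +kernel)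
    one1 hν ⟨(0, 0), by decide +kernel⟩ p₁ p₂ p₃ r hH
  rw [sum_one_log, elog_eq_log G9 one1 hν 0 1 (by decide +kernel),
    elog_eq_log G9 one1 hν 1 (3 ^ 9) (by decide +kernel),
    elog_eq_log G9 one1 hν 2 (2 ^ 4 * 3 ^ 3) (by decide +kernel),
    elog_eq_log G9 one1 hν 3 (3 ^ 9) (by decide +kernel)]
  have hD : ∑ g ∈ G9, ((one1 g : ℕ) : ℝ) = 9 := by
    simp only [one1, Nat.cast_one, sum_const, nsmul_eq_mul, mul_one]
    have : G9.card = 9 := by decide +kernel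
    rw [this]
    norm_num
  rw [hD]
  have h2 := inv_toReal_nonneg p₂
  have l3 : 0 < Real.log 3 := Real.log_pos (by norm_num)
  have e9 : Real.log ((9 : ℕ) : ℝ) = 2 * Real.log 3 := by
    have : ((9 : ℕ) : ℝ) = (3 : ℝ) ^ 2 := by norm_num
    rw [this, Real.log_pow]
    norm_num
  have e39 : Real.log ((3 ^ 9 : ℕ) : ℝ) = 9 * Real.log 3 := by
    rw [Nat.cast_pow, Real.log_pow]
    norm_num
  have e2 : Real.log ((2 ^ 4 * 3 ^ 3 : ℕ) : ℝ) = 4 * Real.log 2 + 3 * Real.log 3 := by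
    rw [Nat.cast_mul, Nat.cast_pow, Nat.cast_pow, Real.log_mul (by positivity) (by positivity),
      Real.log_pow, Real.log_pow]
    norm_num
  have k := log_ineq_of_pow 3 2 12 20 (by norm_num) (by norm_num)
  push_cast at k
  rw [e9, e39, e2]
  simp only [Nat.cast_one, Real.log_one, mul_zero, add_zero, zero_add]
  nlinarith [mul_nonneg h2 l3.le, mul_pos l3 (sub_pos.2 h),
    mul_nonneg h2 (sub_nonneg.2 k)]

theorem corner1 (p₁ p₂ p₃ r : ℝ≥0∞) (hH : IsHolderTuple p₁ p₂ p₃ r)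
    (h : 2 < 9 / 16 * p₁.toReal⁻¹ + p₂.toReal⁻¹ + p₃.toReal⁻¹) : ¬ BoundedAt p₁ p₂ p₃ r := by
  have hν : ∀ g ∈ G12, 0 < one1 g := fun _ _ => Nat.one_pos
  apply unbounded_of_measure_lin G12 12 (by norm_num) (by decide +kernel) (by decide +kernel)
    one1 hν ⟨(0, 0), by decide +kernel⟩ p₁ p₂ p₃ r hH
  rw [sum_one_log, elog_eq_log G12 one1 hν 0 1 (by decide +kernel),
    elog_eq_log G12 one1 hν 1 (2 ^ 4 * 3 ^ 6) (by decide +kernel),
    elog_eq_log G12 one1 hν 2 (3 ^ 12) (by decide +kernel),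
    elog_eq_log G12 one1 hν 3 (2 ^ 24) (by decide +kernel)]
  have hD : ∑ g ∈ G12, ((one1 g : ℕ) : ℝ) = 12 := by
    simp only [one1, Nat.cast_one, sum_const, nsmul_eq_mul, mul_one]
    have : G12.card = 12 := by decide +kernel
    rw [this]
    norm_num
  rw [hD]
  have h1 := inv_toReal_nonneg p₁
  have h2 : p₂.toReal⁻¹ < 1 := inv_toReal_lt_one hH.2.1
  have l2 : 0 < Real.log 2 := Real.log_pos (by norm_num)
  have l3 : 0 < Real.log 3 := Real.log_pos (by norm_num)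
  have e12 : Real.log ((12 : ℕ) : ℝ) = 2 * Real.log 2 + Real.log 3 := by
    have : ((12 : ℕ) : ℝ) = (2 : ℝ) ^ 2 * 3 := by norm_num
    rw [this, Real.log_mul (by positivity) (by positivity), Real.log_pow]
    norm_num
  have e312 : Real.log ((3 ^ 12 : ℕ) : ℝ) = 12 * Real.log 3 := by
    rw [Nat.cast_pow, Real.log_pow]
    norm_num
  have e224 : Real.log ((2 ^ 24 : ℕ) : ℝ) = 24 * Real.log 2 := by
    rw [Nat.cast_pow, Real.log_pow]
    norm_num
  have e1 : Real.log ((2 ^ 4 * 3 ^ 6 : ℕ) : ℝ) = 4 * Real.log 2 + 6 * Real.log 3 := by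
    rw [Nat.cast_mul, Nat.cast_pow, Nat.cast_pow, Real.log_mul (by positivity) (by positivity),
      Real.log_pow, Real.log_pow]
    norm_num
  -- 2^19 ≤ 3^12 and 3 ≤ 4
  have k := log_ineq_of_pow 2 3 19 12 (by norm_num) (by norm_num)
  have k' := log_ineq_of_pow 3 2 1 2 (by norm_num) (by norm_num)
  push_cast at k k'
  rw [e12, e312, e224, e1]
  simp only [Nat.cast_one, Real.log_one, mul_zero, add_zero, zero_add]
  nlinarith [mul_nonneg h1 (sub_nonneg.2 k), mul_nonneg (sub_pos.2 h2).le (sub_nonneg.2 k'),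
    mul_pos l2 (sub_pos.2 h)]

end Vale.Agent.P141
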