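import Mathlib
import Vale.Agent.P141.Defs

namespace Vale.Agent.P141

open scoped ENNReal NNReal

/-- a Holder tuple from real data given by the reciprocals `uᵢ = 1/pᵢ ∈ (0,1)` -/
theorem holder_mk (u₁ u₂ u₃ : ℝ) (h1 : 0 < u₁) (h1' : u₁ < 1) (h2 : 0 < u₂) (h2' : u₂ < 1)
    (h3 : 0 < u₃) (h3' : u₃ < 1) (r : ℝ≥0∞) (hr0 : 0 < r) (hr1 : r < ∞)
    (hrel : r.toReal⁻¹ = u₁ + u₂ + u₃) :
    IsHolderTuple (ENNReal.ofReal u₁⁻¹) (ENNReal.ofReal u₂⁻¹) (ENNReal.ofReal u₃⁻¹) r ∧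
      (ENNReal.ofReal u₁⁻¹).toReal⁻¹ = u₁ ∧ (ENNReal.ofReal u₂⁻¹).toReal⁻¹ = u₂ ∧
      (ENNReal.ofReal u₃⁻¹).toReal⁻¹ = u₃ := by
  have one_lt : ∀ u : ℝ, 0 < u → u < 1 → 1 < ENNReal.ofReal u⁻¹ := by
    intro u hu hu'
    rw [← ENNReal.ofReal_one]
    exact (ENNReal.ofReal_lt_ofReal_iff (inv_pos.2 hu)).2 ((one_lt_inv₀ hu).2 hu')
  have inv_eq : ∀ u : ℝ, 0 < u → 1 / ENNReal.ofReal u⁻¹ = ENNReal.ofReal u := by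
    intro u hu
    rw [one_div, ← ENNReal.ofReal_inv_of_pos (inv_pos.2 hu), inv_inv]
  have tr : ∀ u : ℝ, 0 < u → (ENNReal.ofReal u⁻¹).toReal⁻¹ = u := by
    intro u hu
    rw [ENNReal.toReal_ofReal (inv_pos.2 hu).le, inv_inv]
  refine ⟨⟨one_lt _ h1 h1', one_lt _ h2 h2', one_lt _ h3 h3', hr0, hr1, ?_⟩, tr _ h1, tr _ h2,
    tr _ h3⟩
  rw [inv_eq _ h1, inv_eq _ h2, inv_eq _ h3, ← ENNReal.ofReal_add h1.le h2.le,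
    ← ENNReal.ofReal_add (add_pos h1 h2).le h3.le, ← hrel]
  have hρ : 0 < r.toReal := ENNReal.toReal_pos hr0.ne' hr1.ne
  rw [ENNReal.ofReal_inv_of_pos hρ, ENNReal.ofReal_toReal hr1.ne, one_div]

end Vale.Agent.P141
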